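import Crest.Agent.R247.C.Loc

/-! # Row 247, block C: the barrier step -/

set_option autoImplicit false
set_option linter.unusedSectionVars false
set_option linter.unusedVariables false
open MeasureTheory Filter Set Metric Matrix
open scoped ENNReal NNReal Topology ContDiff

noncomputable section
namespace Crest.Agent.R247.MC
universe u

variable {n : ℕ} {M : Type u} [MetricSpace M] {U : Set M} {Ca R C δ K : ℝ} {N₀ k : ℕ}
  {D : CData n U Ca R C (δ ^ 2)} {x x' z p : M} {F : M → V n} {B : M → Mat n}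

variable {σ : ℝ}

theorem Net.near (ν : Net D k N₀) {b : M} (hb : b ∈ ν.s) (hd : dist x b ≤ R / 2 * rr D k) :
    dist x (ν.p b) ≤ R * rr D k := by
  linarith [dist_triangle x b (ν.p b), ν.p_dist b hb]

theorem vmv (a d w : V n) : vecMulVec a d *ᵥ w = (d ⬝ᵥ w) • a := by
  ext i
  simp [mulVec, dotProduct, vecMulVec_apply, Finset.mul_sum, mul_comm, mul_left_comm]

theorem Net.db_zero (ν : Net D k N₀) (B : M → Mat n) {b : M} (hb : b ∈ ν.s) (hx : x ∈ U)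
    (hd : R / 4 * rr D k < dist x b) : ν.db B b x = 0 := by
  simp [Net.db, ν.supp b hb x hx hd]

theorem Net.fb_zero (ν : Net D k N₀) (B : M → Mat n) {b : M} (hb : b ∈ ν.s) (hx : x ∈ U)
    (hd : R / 4 * rr D k < dist x b) : ν.fb B b x = 0 := by
  simp [Net.fb, ν.supp b hb x hx hd]

theorem far (h : Sm R C δ) {b : M} (hd : ¬dist x b ≤ R / 2 * rr D k) : R / 4 * rr D k < dist x b := by
  linarith [not_le.1 hd, mul_pos h.R_pos (rr_pos D k)]

theorem a_le (h : Sm R C δ) (hx : x ∈ U) (hp : p ∈ U) (hd : dist x p ≤ R * rr D k) :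
    sn (D.G k x)⁻¹ (D.u x - D.u p) ≤ C * R * rr D k := by
  rw [sn_sub_comm, mul_assoc]
  exact (u_up h hx hp hd).trans (mul_le_mul_of_nonneg_left hd h.C_pos.le)

theorem Sm.one_le_CR (h : Sm R C δ) : 1 ≤ C * R :=
  one_le_mul_of_one_le_of_one_le h.C_ge (by linarith [h.R_ge])

/-- `N₀ * (c C⁴ R y) ≤ K y` for `c ≤ 2000`. -/
theorem Par.le_K (h : Par N₀ Ca R C δ K) {c y : ℝ} (hc : c ≤ 2000) (hy : 0 ≤ y) :
    N₀ * (c * C ^ 4 * R * y) ≤ K * y := by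
  have := h.sm.C_pos
  have := h.sm.R_pos
  calc _ ≤ N₀ * (2000 * C ^ 4 * R * y) := by gcongr
    _ = _ := by rw [h.K_eq]; ring

theorem Net.db_left (ν : Net D k N₀) (B : M → Mat n) (b x : M) (v : V n) :
    (ν.db B b x)ᵀ *ᵥ v = ν.φ b x • (Lam D k B (ν.p b))ᵀ *ᵥ v +
      (((Lam D k B (ν.p b))ᵀ *ᵥ v) ⬝ᵥ (D.u x - D.u (ν.p b))) • ν.dφ b x := by
  rw [Net.db, transpose_add, add_mulVec, transpose_smul, smul_mulVec, transpose_vecMulVec, vmv,
    dotProduct_comm, dot_mulVec]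

theorem Net.db_right (ν : Net D k N₀) (B : M → Mat n) (b x : M) (w : V n) :
    ν.db B b x *ᵥ w = ν.φ b x • Lam D k B (ν.p b) *ᵥ w +
      (ν.dφ b x ⬝ᵥ w) • Lam D k B (ν.p b) *ᵥ (D.u x - D.u (ν.p b)) := by
  rw [Net.db, add_mulVec, smul_mulVec, vmv]

theorem Inv.dB_left (hI : Inv D K k F B) (h : Par N₀ Ca R C δ K) (ν : Net D k N₀) (hx : x ∈ U)
    (hσ : σ = 1 ∨ σ = -1) (v : V n) :
    sn (D.G k x) ((ν.dB B x)ᵀ *ᵥ v) ≤ K * δ * tau D K k B σ x v := by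
  have hC := h.sm.C_pos
  have hR := h.sm.R_pos
  have hδ := h.sm.δ_pos
  have hr := rr_pos D k
  have t0 := tau_nn D K k B σ x v
  rw [Net.dB, transpose_sum, sum_mulVec, mul_assoc]
  refine (sn_sum_le (G_psd hx k) _ _).trans ((sum_le_card _ _ (ν.card x hx) (by positivity)
    (fun b hb hd => ?_) fun b hb hd => ?_).trans (h.le_K (c := 240) (by norm_num) (by positivity)))
  · have hp := ν.p_mem b hb
    have a1 := hI.lam_left h hx hp (ν.near hb hd) (ν.p_min b hb x hx hd) hσ v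
    have a2 := (abs_dot_le (D.G_pd k x hx) _ _).trans
      (mul_le_mul a1 (a_le h.sm hx hp (ν.near hb hd)) (sn_nonneg _ _) (by positivity))
    have a3 := mul_le_mul_of_nonneg_right a2 (sn_nonneg (D.G k x) (ν.dφ b x))
    have a4 := mul_le_mul_of_nonneg_left (ν.dφ_le b hb x hx hd x)
      (by positivity : 0 ≤ 48 * C ^ 3 * δ * tau D K k B σ x v * (C * R))
    have a5 := mul_le_mul_of_nonneg_left h.sm.one_le_CR
      (by positivity : 0 ≤ 48 * C ^ 3 * δ * tau D K k B σ x v)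
    rw [ν.db_left]
    refine (sn_add_le (G_psd hx k) _ _).trans ?_
    rw [sn_smul, sn_smul, abs_of_nonneg (ν.φ_nn b x)]
    linarith [mul_le_of_le_one_left (sn_nonneg (D.G k x) ((Lam D k B (ν.p b))ᵀ *ᵥ v)) (ν.φ_le b hb x)]
  · rw [ν.db_zero B hb hx (far h.sm hd), transpose_zero, zero_mulVec, sn_zero]

theorem Inv.dB_cross (hI : Inv D K k F B) (h : Par N₀ Ca R C δ K) (ν : Net D k N₀) (hx : x ∈ U)
    (hσ : σ = 1 ∨ σ = -1) (v : V n) :
    qf (D.Dp k x) ((B x)ᵀ *ᵥ v) - K * δ * tau D K k B σ x v ^ 2 -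
        K * tau D K k B σ x v * (√(kt D k x) * sn 1 v) ≤
      -σ * (v ⬝ᵥ ν.dB B x *ᵥ D.G (k + 1) x *ᵥ (B x)ᵀ *ᵥ v) := by
  have hC := h.sm.C_pos
  have hR := h.sm.R_pos
  have hδ := h.sm.δ_pos
  have hr := rr_pos D k
  have t0 := tau_nn D K k B σ x v
  have v0 := sn_nonneg 1 v
  set ζ := (B x)ᵀ *ᵥ v with hζ
  set τ := tau D K k B σ x v with hτ
  set w := D.G (k + 1) x *ᵥ ζ with hw
  have w1 : sn (D.G k x)⁻¹ w ≤ 4 * sn 1 v := by
    linarith [(w_est (D := D) h.sm hx k ζ).2.2, hI.B_up h hx v]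
  have key := sum_le_card ν.s _ (ν.card x hx)
    (f := fun b => ν.φ b x * (2 * C * qf (D.Y k (ν.p b)) ζ) - -σ * (v ⬝ᵥ ν.db B b x *ᵥ w))
    (c := 1100 * C ^ 4 * R * (δ * τ ^ 2) + 1024 * C ^ 4 * R * (τ * (√(kt D k x) * sn 1 v)))
    (by positivity) (fun b hb hd => by
      have hp := ν.p_mem b hb
      have hn := ν.near hb hd
      have hκ := ν.p_min b hb x hx hd
      have a1 := mul_le_mul_of_nonneg_left (hI.lam_cross h hx hp hn hκ hσ v) (ν.φ_nn b x)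
      have a2 := (hI.lam_both h hx hp hn hκ hσ v (D.u x - D.u (ν.p b))).trans
        (mul_le_mul_of_nonneg_left (spl_est h.sm hx hp hn hκ) (by positivity))
      have a3 := (abs_dot_le (D.G_pd k x hx) (ν.dφ b x) w).trans
        (mul_le_mul_of_nonneg_left w1 (sn_nonneg _ _))
      have a4 := mul_le_mul a3 a2 (abs_nonneg _) (mul_nonneg (sn_nonneg _ _) (by positivity))
      have a5 := mul_le_mul_of_nonneg_left (ν.dφ_le b hb x hx hd x)
        (by positivity : 0 ≤ 256 * C ^ 4 * R * (τ * (√(kt D k x) * sn 1 v)))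
      have a6 := mul_le_of_le_one_left (by positivity : 0 ≤ 1100 * C ^ 3 * δ * τ ^ 2) (ν.φ_le b hb x)
      have a7 := mul_le_mul_of_nonneg_left h.sm.one_le_CR
        (by positivity : 0 ≤ 1100 * C ^ 3 * δ * τ ^ 2)
      rw [← abs_mul] at a4
      have a8 := abs_le.1 a4
      rw [← hζ, ← hτ, ← hw] at a1
      rw [ν.db_right, dotProduct_add, dotProduct_smul, dotProduct_smul, smul_eq_mul, smul_eq_mul]
      rcases hσ with rfl | rfl <;> linarith)
    fun b hb hd => by simp [ν.db_zero B hb hx (far h.sm hd), (ν.supp b hb x hx (far h.sm hd)).1]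
  obtain ⟨b, hb, h1, h2⟩ := ν.cover x hx
  have hd : dist x b ≤ R / 2 * rr D k := by nlinarith [h.sm.R_ge]
  have m1 := Finset.single_le_sum (f := fun b => ν.φ b x * (2 * C * qf (D.Y k (ν.p b)) ζ))
    (fun b hb => mul_nonneg (ν.φ_nn b x)
      (mul_nonneg (by positivity) (psd_qf (D.Y_psd k _ (ν.p_mem b hb)) ζ))) hb
  have m2 := mul_le_mul_of_nonneg_right h2
    (mul_nonneg (by positivity : 0 ≤ 2 * C) (psd_qf (D.Y_psd k _ (ν.p_mem b hb)) ζ))
  have m3 := D.Dp_Y k x hx _ (ν.p_mem b hb) (ν.near hb hd) ζ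
  have m4 := h.le_K (c := 1100) (by norm_num) (by positivity : 0 ≤ δ * τ ^ 2)
  have m5 := h.le_K (c := 1024) (by norm_num) (by positivity : 0 ≤ τ * (√(kt D k x) * sn 1 v))
  rw [Finset.sum_sub_distrib, ← Finset.mul_sum, ← dotProduct_sum, ← sum_mulVec] at key
  rw [Net.dB]
  linarith

theorem Par.K_ge (h : Par N₀ Ca R C δ K) : 1 ≤ K := by
  have h1 : (1 : ℝ) ≤ N₀ := by exact_mod_cast h.N_ge
  rw [h.K_eq]
  exact one_le_mul_of_one_le_of_one_le (one_le_mul_of_one_le_of_one_le (by linarith)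
    (one_le_pow₀ h.sm.C_ge)) (by linarith [h.sm.R_ge])

theorem Inv.bar_step (hI : Inv D K k F B) (h : Par N₀ Ca R C δ K) (ν : Net D k N₀) (hx : x ∈ U)
    (hσ : σ = 1 ∨ σ = -1) (v : V n) :
    tau D K k B σ x v ^ 2 ≤ 10 * SS D K (k + 1) (fun x => B x + ν.dB B x) σ x v := by
  have a1 := hI.dB_left h ν hx hσ v
  have a2 := hI.dB_cross h ν hx hσ v
  have a3 : tau D K k B σ x v ^ 2 = SS D K k B σ x v + qf (TT D k x) ((B x)ᵀ *ᵥ v) :=
    Real.sq_sqrt (add_nonneg (hI.bar x hx σ hσ v) (psd_qf (T_psd hx k) _))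
  have t0 := tau_nn D K k B σ x v
  have e1 : v ⬝ᵥ ν.dB B x *ᵥ D.G (k + 1) x *ᵥ (B x)ᵀ *ᵥ v =
      bf (D.G (k + 1) x) ((B x)ᵀ *ᵥ v) ((ν.dB B x)ᵀ *ᵥ v) := by
    rw [bf_comm' (psd_symm (G_psd hx _)), bf, dot_mulVec]
  have e2 : eta D K (k + 1) x = eta D K k x + 100 * K ^ 2 * kt D k x := by
    rw [eta, eta, Finset.sum_range_succ]
    ring
  have q1 := (abs_le.1 (hI.Q_bd h hx v)).2
  rw [qT, SS] at a3
  rw [e1] at a2
  simp only [SS, e2, transpose_add, add_mulVec, qf_vadd (psd_symm (G_psd hx _)),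
    qf_vadd (psd_symm (A_psd hx _)), qA_succ hx k ((B x)ᵀ *ᵥ v)]
  set ζ := (B x)ᵀ *ᵥ v
  set l := (ν.dB B x)ᵀ *ᵥ v
  set τ := tau D K k B σ x v
  have b1 : qf (D.G (k + 1) x) l ≤ τ ^ 2 / 1000 := by
    have c1 : sn (D.G (k + 1) x) l ≤ τ / 100 := by
      linarith [G_up (D := D) h.sm hx k l, mul_le_mul_of_nonneg_right h.Kδ t0]
    have := pow_le_pow_left₀ (sn_nonneg _ _) c1 2
    rw [sn_sq (G_psd hx _)] at this
    linarith [sq_nonneg τ]
  have g0 := psd_qf (G_psd (D := D) hx (k + 1)) l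
  have b2 : qf (D.A (k + 1) x) l ≤ qf (D.G (k + 1) x) l := by
    linarith [qA_le (D := D) h.sm hx (k + 1) l, mul_le_mul_of_nonneg_right h.sm.δ2 g0]
  have b3 : 2 * bf (D.A (k + 1) x) ζ l ≤
      (qf (D.A k x) ζ / 2 + qf (D.Dp k x) ζ) / 2 + 2 * qf (D.A (k + 1) x) l := by
    rw [← qA_succ hx, ← sn_sq (A_psd hx _), ← sn_sq (A_psd hx _)]
    linarith [(abs_le.1 (abs_bf_le (A_psd (D := D) hx (k + 1)) ζ l)).2,
      sq_nonneg (sn (D.A (k + 1) x) ζ - 2 * sn (D.A (k + 1) x) l)]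
  have b4 := abs_le.1 (qG_succ (D := D) hx k ζ)
  have b5 := mul_le_mul_of_nonneg_right (κ_le_kt (D := D) hx k) (psd_qf (G_psd (D := D) hx k) ζ)
  have b6 := mul_le_mul_of_nonneg_left q1 (kt_nn (D := D) hx k)
  have b7 : 2 * (K * τ * (√(kt D k x) * sn 1 v)) ≤ τ ^ 2 / 64 + 64 * K ^ 2 * (kt D k x * (v ⬝ᵥ v)) := by
    rw [← sn_one_sq, ← Real.sq_sqrt (kt_nn (D := D) hx k), Real.sqrt_sq (Real.sqrt_nonneg _)]
    linarith [sq_nonneg (τ / 8 - 8 * (K * (√(kt D k x) * sn 1 v)))]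
  have b8 := mul_le_mul_of_nonneg_right h.Kδ (sq_nonneg τ)
  have b9 : kt D k x * (v ⬝ᵥ v) ≤ K ^ 2 * (kt D k x * (v ⬝ᵥ v)) :=
    le_mul_of_one_le_left (mul_nonneg (kt_nn hx k) (dot_nn v)) (one_le_pow₀ h.K_ge)
  have b10 := mul_nonneg (kt_nn (D := D) hx k) (dot_nn v)
  have b11 := psd_qf (D.Dp_psd k x hx) ζ
  have b12 := psd_qf (A_psd (D := D) hx k) ζ
  have b13 := hI.bar x hx σ hσ v
  rw [SS] at b13
  rcases hσ with rfl | rfl <;> linarith

end Crest.Agent.R247.MC
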