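import Crest.Agent.R247.C.Def

/-! # Row 247, block C: elementary consequences of the data -/

set_option autoImplicit false
set_option linter.unusedSectionVars false
set_option linter.unusedVariables false
open MeasureTheory Filter Set Metric Matrix
open scoped ENNReal NNReal Topology ContDiff

noncomputable section
namespace Crest.Agent.R247.MC
universe u

variable {n : ℕ} {M : Type u} [MetricSpace M] {U : Set M} {Ca R C δ K : ℝ} {N₀ k : ℕ}
  {D : CData n U Ca R C (δ ^ 2)} {x x' z p : M} {F : M → V n} {B : M → Mat n}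

theorem Sm.C2δ (h : Sm R C δ) : C ^ 2 * δ ≤ 1 / 16000 := by
  have := mul_le_mul_of_nonneg_left h.R_ge (mul_nonneg (sq_nonneg C) h.δ_pos.le)
  linarith [h.small]

theorem Sm.Cδ (h : Sm R C δ) : C * δ ≤ 1 / 16000 :=
  (mul_le_mul_of_nonneg_right (le_self_pow₀ h.C_ge two_ne_zero) h.δ_pos.le).trans h.C2δ

theorem Sm.δ_le (h : Sm R C δ) : δ ≤ 1 / 16000 :=
  (le_mul_of_one_le_left h.δ_pos.le h.C_ge).trans h.Cδ

theorem Sm.δ2 (h : Sm R C δ) : δ ^ 2 ≤ 1 / 16000 := by nlinarith [h.δ_le, h.δ_pos]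

theorem Sm.C_pos (h : Sm R C δ) : 0 < C := one_pos.trans_le h.C_ge

theorem Sm.R_pos (h : Sm R C δ) : 0 < R := by linarith [h.R_ge]

theorem G_psd (hx : x ∈ U) (k : ℕ) : (D.G k x).PosSemidef := (D.G_pd k x hx).posSemidef

theorem g_psd (hx : x ∈ U) (k : ℕ) : (D.G k x)⁻¹.PosSemidef := (D.G_pd k x hx).inv.posSemidef

theorem rr_pos (D : CData n U Ca R C (δ ^ 2)) (k : ℕ) : 0 < rr D k := by
  have := D.r₀_pos
  unfold rr rk
  positivity

theorem rr_succ (D : CData n U Ca R C (δ ^ 2)) (k : ℕ) : rr D k = 4 * rr D (k + 1) := by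
  unfold rr rk
  rw [pow_succ (4 : ℝ)]
  field_simp

theorem κ_nn (hx : x ∈ U) (k : ℕ) : 0 ≤ D.κ k x := by
  obtain ⟨e, h1, h2⟩ := D.κ_pos k
  exact h1.le.trans (h2 x hx)

theorem kt_succ (D : CData n U Ca R C (δ ^ 2)) (k : ℕ) (x : M) :
    kt D (k + 1) x = kt D k x / 2 + D.κ (k + 1) x := by
  unfold kt acc
  rw [Finset.sum_range_succ, Nat.sub_self, pow_zero, div_one, Finset.sum_div]
  congr 1
  refine Finset.sum_congr rfl fun j hj => ?_
  rw [Nat.succ_sub (Nat.lt_succ_iff.1 (Finset.mem_range.1 hj)), pow_succ (2 : ℝ), div_div]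

theorem kt_zero (D : CData n U Ca R C (δ ^ 2)) (x : M) : kt D 0 x = D.κ 0 x := by
  simp [kt, acc]

theorem kt_nn (hx : x ∈ U) (k : ℕ) : 0 ≤ kt D k x := by
  unfold kt acc
  exact Finset.sum_nonneg fun j _ => div_nonneg (κ_nn hx j) (by positivity)

theorem κ_le_kt (hx : x ∈ U) (k : ℕ) : D.κ k x ≤ kt D k x := by
  cases k with
  | zero => exact (kt_zero D x).ge
  | succ k => rw [kt_succ]; linarith [kt_nn (D := D) hx k]

theorem kt_le (hx : x ∈ U) (k : ℕ) : kt D k x ≤ δ ^ 2 := by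
  unfold kt acc
  refine le_trans (Finset.sum_le_sum fun j _ => ?_) (D.κ_sum x hx (k + 1))
  exact div_le_self (κ_nn hx j) (one_le_pow₀ one_le_two)

theorem kt_sum (hx : x ∈ U) (N : ℕ) : ∑ j ∈ Finset.range N, kt D j x ≤ 2 * δ ^ 2 := by
  have key : ∀ N, ∑ j ∈ Finset.range N, kt D j x + 2 * kt D N x =
      2 * ∑ j ∈ Finset.range (N + 1), D.κ j x := fun N => by
    induction N with
    | zero => simp [kt_zero]
    | succ N ih => rw [Finset.sum_range_succ, Finset.sum_range_succ _ (N + 1), kt_succ]; linarith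
  linarith [key N, D.κ_sum x hx (N + 1), kt_nn (D := D) hx N]

theorem A_psd (hx : x ∈ U) (k : ℕ) : (D.A k x).PosSemidef := by
  induction k with
  | zero => exact D.A_psd x hx
  | succ k ih => rw [D.A_succ k x hx]; exact (ih.smul (by norm_num)).add (D.Dp_psd k x hx)

theorem T_psd (hx : x ∈ U) (k : ℕ) : (TT D k x).PosSemidef := by
  exact (A_psd hx k).add ((G_psd hx k).smul (kt_nn hx k))

theorem qG_succ (hx : x ∈ U) (k : ℕ) (ζ : V n) :
    |qf (D.G k x) ζ - qf (D.G (k + 1) x) ζ - qf (D.Dp k x) ζ| ≤ D.κ k x * qf (D.G k x) ζ := by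
  simpa only [qf_msub] using D.G_succ k x hx ζ

theorem qG_up (hx : x ∈ U) (k : ℕ) (ζ : V n) :
    qf (D.G (k + 1) x) ζ ≤ (1 + D.κ k x) * qf (D.G k x) ζ := by
  linarith [(abs_le.1 (qG_succ (D := D) hx k ζ)).1, psd_qf (D.Dp_psd k x hx) ζ]

theorem qG_down (hx : x ∈ U) (k : ℕ) (ζ : V n) :
    (1 - 2 * δ ^ 2) * qf (D.G k x) ζ ≤ qf (D.G (k + 1) x) ζ := by
  have := mul_le_mul_of_nonneg_right ((κ_le_kt (D := D) hx k).trans (kt_le hx k))
    (psd_qf (G_psd (D := D) hx k) ζ)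
  linarith [(abs_le.1 (qG_succ (D := D) hx k ζ)).2, D.Dp_le k x hx ζ]

theorem G_up (h : Sm R C δ) (hx : x ∈ U) (k : ℕ) (ζ : V n) :
    sn (D.G (k + 1) x) ζ ≤ 101 / 100 * sn (D.G k x) ζ := by
  refine sn_le_mul (G_psd hx k) (by norm_num) ((qG_up hx k ζ).trans ?_)
  exact mul_le_mul_of_nonneg_right (by linarith [κ_le_kt (D := D) hx k, kt_le (D := D) hx k, h.δ2])
    (psd_qf (G_psd hx k) ζ)

theorem G_down (h : Sm R C δ) (hx : x ∈ U) (k : ℕ) (ζ : V n) :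
    sn (D.G k x) ζ ≤ 101 / 100 * sn (D.G (k + 1) x) ζ := by
  refine sn_le_mul (G_psd hx _) (by norm_num) ?_
  nlinarith [qG_down (D := D) hx k ζ, h.δ2, psd_qf (G_psd (D := D) hx k) ζ]

theorem g_up (h : Sm R C δ) (hx : x ∈ U) (k : ℕ) (a : V n) :
    sn (D.G k x)⁻¹ a ≤ 101 / 100 * sn (D.G (k + 1) x)⁻¹ a := by
  exact sn_inv_mono (D.G_pd _ x hx) (D.G_pd _ x hx) (by norm_num) (G_up h hx k) a

theorem qA_succ (hx : x ∈ U) (k : ℕ) (ζ : V n) :
    qf (D.A (k + 1) x) ζ = qf (D.A k x) ζ / 2 + qf (D.Dp k x) ζ := by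
  rw [D.A_succ k x hx, qf_madd, qf_msmul]
  ring

theorem qA_le (h : Sm R C δ) (hx : x ∈ U) (k : ℕ) (ζ : V n) :
    qf (D.A k x) ζ ≤ 4 * δ ^ 2 * qf (D.G k x) ζ := by
  induction k with
  | zero => nlinarith [D.A_zero x hx ζ, mul_nonneg (sq_nonneg δ) (psd_qf (G_psd (D := D) hx 0) ζ)]
  | succ k ih =>
    have h1 := mul_le_mul_of_nonneg_left (qG_down (D := D) hx k ζ) (sq_nonneg δ)
    have h2 := mul_le_mul_of_nonneg_right h.δ2
      (mul_nonneg (sq_nonneg δ) (psd_qf (G_psd (D := D) hx k) ζ))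
    have h3 := mul_nonneg (sq_nonneg δ) (psd_qf (G_psd (D := D) hx k) ζ)
    rw [qA_succ hx]
    linarith [D.Dp_le k x hx ζ]

theorem qT (D : CData n U Ca R C (δ ^ 2)) (k : ℕ) (x : M) (ζ : V n) :
    qf (TT D k x) ζ = qf (D.A k x) ζ + kt D k x * qf (D.G k x) ζ := by
  rw [TT, qf_madd, qf_msmul]

theorem qT_le (h : Sm R C δ) (hx : x ∈ U) (k : ℕ) (ζ : V n) :
    qf (TT D k x) ζ ≤ 5 * δ ^ 2 * qf (D.G k x) ζ := by
  have := mul_le_mul_of_nonneg_right (kt_le (D := D) hx k) (psd_qf (G_psd (D := D) hx k) ζ)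
  rw [qT]
  linarith [qA_le (D := D) h hx k ζ]

theorem qA_le_T (hx : x ∈ U) (k : ℕ) (ζ : V n) : qf (D.A k x) ζ ≤ qf (TT D k x) ζ := by
  rw [qT]
  exact le_add_of_nonneg_right (mul_nonneg (kt_nn hx k) (psd_qf (G_psd hx k) ζ))

/-- Induction: `A k ≤ 4 ε G k`. -/
theorem A_le (h : Sm R C δ) (hx : x ∈ U) (k : ℕ) (ζ : V n) :
    sn (D.A k x) ζ ≤ 2 * δ * sn (D.G k x) ζ := by
  exact sn_le_mul (G_psd hx k) (by linarith [h.δ_pos]) ((qA_le h hx k ζ).trans_eq (by ring))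

theorem T_le (h : Sm R C δ) (hx : x ∈ U) (k : ℕ) (ζ : V n) :
    sn (TT D k x) ζ ≤ 3 * δ * sn (D.G k x) ζ := by
  refine sn_le_mul (G_psd hx k) (by linarith [h.δ_pos]) ?_
  nlinarith [qT_le (D := D) h hx k ζ, mul_nonneg (sq_nonneg δ) (psd_qf (G_psd (D := D) hx k) ζ)]

theorem Y_le (h : Sm R C δ) (hx : x ∈ U) (hp : p ∈ U) (hd : dist x p ≤ R * rr D k) (ζ : V n) :
    sn (D.Y k p) ζ ≤ C * sn (TT D k x) ζ := by
  refine sn_le_mul (T_psd hx k) h.C_pos.le ((D.Y_A k x hx p hp hd ζ).trans ?_)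
  exact mul_le_mul (le_self_pow₀ h.C_ge two_ne_zero) (qA_le_T hx k ζ) (psd_qf (A_psd hx k) ζ)
    (sq_nonneg C)

theorem qG_varT (hx : x ∈ U) (hp : p ∈ U) (hd : dist x p ≤ R * rr D k) (ζ : V n) :
    |qf (D.G k p - D.G k x) ζ| ≤ C * qf (TT D k x) ζ := by
  rw [qT]
  exact D.G_var k x hx p hp hd ζ

theorem qG_var (h : Sm R C δ) (hx : x ∈ U) (hp : p ∈ U) (hd : dist x p ≤ R * rr D k) (ζ : V n) :
    |qf (D.G k p - D.G k x) ζ| ≤ 1 / 2 * qf (D.G k x) ζ := by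
  refine (qG_varT hx hp hd ζ).trans ((mul_le_mul_of_nonneg_left (qT_le h hx k ζ) h.C_pos.le).trans ?_)
  rw [← mul_assoc]
  refine mul_le_mul_of_nonneg_right ?_ (psd_qf (G_psd hx k) ζ)
  nlinarith [h.Cδ, h.δ_le, h.δ_pos]

theorem G_cmp (h : Sm R C δ) (hx : x ∈ U) (hp : p ∈ U) (hd : dist x p ≤ R * rr D k) (ζ : V n) :
    sn (D.G k p) ζ ≤ 2 * sn (D.G k x) ζ := by
  refine sn_le_mul (G_psd hx k) zero_le_two ?_
  have h1 := (abs_le.1 (qG_var h hx hp hd ζ)).2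
  rw [qf_msub] at h1
  linarith [psd_qf (G_psd (D := D) hx k) ζ]

theorem g_cmp (h : Sm R C δ) (hx : x ∈ U) (hp : p ∈ U) (hd : dist x p ≤ R * rr D k) (a : V n) :
    sn (D.G k p)⁻¹ a ≤ 2 * sn (D.G k x)⁻¹ a := by
  exact sn_inv_mono (D.G_pd _ p hp) (D.G_pd _ x hx) zero_le_two
    (G_cmp h hp hx (by rwa [dist_comm])) a

/-- `sandwich_vec` with `G_var`. -/
theorem G_var_vec (h : Sm R C δ) (hx : x ∈ U) (hp : p ∈ U) (hd : dist x p ≤ R * rr D k) (ζ : V n) :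
    sn (D.G k x)⁻¹ ((D.G k p - D.G k x) *ᵥ ζ) ≤ 3 * C * δ * sn (TT D k x) ζ := by
  refine (sandwich_vec (D.G_pd k x hx) (by rw [transpose_sub, psd_symm (G_psd hx k), psd_symm (G_psd hp k)])
    (T_psd hx k) h.C_pos.le (by linarith [h.δ_pos]) (qG_varT hx hp hd) (T_le h hx k) ζ).trans_eq ?_
  ring

/-- `sandwich_vec` with `G_succ`, `Dp ≤ C Y ≤ C² A`. -/
theorem G_succ_vec (h : Sm R C δ) (hx : x ∈ U) (k : ℕ) (ζ : V n) :
    sn (D.G k x)⁻¹ ((D.G k x - D.G (k + 1) x) *ᵥ ζ) ≤ 3 * C ^ 2 * δ * sn (TT D k x) ζ := by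
  refine (sandwich_vec (D.G_pd k x hx) (by rw [transpose_sub, psd_symm (G_psd hx k), psd_symm (G_psd hx _)])
    (T_psd hx k) (sq_nonneg C) (by linarith [h.δ_pos]) (fun v => ?_) (T_le h hx k) ζ).trans_eq (by ring)
  have hd : dist x x ≤ R * rk D.r₀ k := by
    rw [dist_self]
    exact mul_nonneg h.R_pos.le (rr_pos D k).le
  have h1 := abs_le.1 (qG_succ (D := D) hx k v)
  have h2 := (D.Dp_Y k x hx x hx hd v).trans
    (mul_le_mul_of_nonneg_left (D.Y_A k x hx x hx hd v) h.C_pos.le)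
  have h3 : D.κ k x * qf (D.G k x) v ≤ C ^ 2 * (kt D k x * qf (D.G k x) v) :=
    (mul_le_mul_of_nonneg_right (κ_le_kt hx k) (psd_qf (G_psd hx k) v)).trans
      (le_mul_of_one_le_left (mul_nonneg (kt_nn hx k) (psd_qf (G_psd hx k) v)) (one_le_pow₀ h.C_ge))
  have h4 := psd_qf (D.Dp_psd k x hx) v
  rw [qf_msub, qT]
  exact abs_le.2 ⟨by linarith, by linarith⟩

theorem u_up (h : Sm R C δ) (hx : x ∈ U) (hz : z ∈ U) (hd : dist x z ≤ R * rr D k) :
    sn (D.G k x)⁻¹ (D.u z - D.u x) ≤ C * dist x z := by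
  refine sn_le_of_sq (mul_nonneg h.C_pos.le dist_nonneg) ((D.up₂ k x hx z hz hd).trans ?_)
  rw [mul_pow]
  exact mul_le_mul_of_nonneg_right (le_self_pow₀ h.C_ge two_ne_zero) (sq_nonneg _)

theorem G_multi (h : Sm R C δ) (hx : x ∈ U) {i : ℕ} (hi : i ≤ k) (ζ : V n) :
    sn (D.G k x) ζ ≤ 2 * sn (D.G i x) ζ := by
  have h0 := psd_qf (G_psd (D := D) hx i) ζ
  have hs : ∀ k, 0 ≤ ∑ j ∈ Finset.range k, D.κ j x := fun k => Finset.sum_nonneg fun j _ => κ_nn hx j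
  have key : qf (D.G k x) ζ ≤ (1 + 2 * ∑ j ∈ Finset.range k, D.κ j x) * qf (D.G i x) ζ := by
    induction k, hi using Nat.le_induction with
    | base => nlinarith [hs i]
    | succ k hk ih =>
      refine (qG_up hx k ζ).trans ((mul_le_mul_of_nonneg_left ih (by linarith [κ_nn (D := D) hx k])).trans ?_)
      rw [← mul_assoc, Finset.sum_range_succ]
      refine mul_le_mul_of_nonneg_right ?_ h0
      nlinarith [κ_nn (D := D) hx k, D.κ_sum x hx k, h.δ2]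
  refine sn_le_mul (G_psd hx i) zero_le_two (key.trans (mul_le_mul_of_nonneg_right ?_ h0))
  linarith [D.κ_sum x hx k, h.δ2]

/-- `low` at the level `i ≤ k` of the distance, `G k ≤ ∏ (1 + κ) G i ≤ 2 G i`. -/
theorem u_low (h : Sm R C δ) (hCa : 1 ≤ Ca) (hx : x ∈ U) (hz : z ∈ U)
    (hd : rr D (k + 1) ≤ dist x z) : dist x z ≤ 2 * Ca * sn (D.G k x)⁻¹ (D.u z - D.u x) := by
  classical
  have hex : ∃ i, rr D (i + 1) ≤ dist x z := ⟨k, hd⟩
  have h1 := Nat.find_spec hex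
  have h2 : Nat.find hex ≤ k := Nat.find_min' hex hd
  have h3 : dist x z ≤ rr D (Nat.find hex) := by
    rcases h0 : Nat.find hex with _ | i
    · simpa [rr, rk] using (D.diam x hx z hz).le
    · exact (not_le.1 (Nat.find_min hex (by omega : i < Nat.find hex))).le
  have h4 := D.low _ x hx z hz h1 h3
  have h5 := sn_inv_mono (D.G_pd _ x hx) (D.G_pd _ x hx) zero_le_two (G_multi (D := D) h hx h2)
    (D.u z - D.u x)
  rw [← sn_sq (g_psd hx _), ← mul_pow] at h4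
  have h6 := (abs_le_of_sq_le_sq' h4 (mul_nonneg (by linarith) (sn_nonneg _ _))).2
  nlinarith

/-- `split k k`. -/
theorem good_one (h : Sm R C δ) (hx : x ∈ U) (hp : p ∈ U) (hd : dist x p ≤ R * rr D k) :
    Good D k 1 (kt D k x + kt D k p) x p := by
  have h0 := add_nonneg (kt_nn (D := D) hx k) (kt_nn (D := D) hp k)
  have hr := rr_pos D k
  have hC := h.C_pos
  refine ⟨one_pos, le_rfl, h0, by simpa using hd, by simpa using kt_nn hp k,
    sn_le_of_sq (by positivity) ((D.split k k le_rfl x hx p hp hd).trans ?_)⟩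
  rw [Nat.sub_self, pow_zero, mul_one, mul_one, mul_pow, mul_pow, Real.sq_sqrt h0]
  exact mul_le_mul (mul_le_mul_of_nonneg_right (le_self_pow₀ h.C_ge two_ne_zero) (sq_nonneg _))
    (add_le_add (κ_le_kt hx k) (κ_le_kt hp k)) (add_nonneg (κ_nn hx k) (κ_nn hp k)) (by positivity)

/-- `g k Δ = ξ - g k (G k - G (k+1)) ξ`, `ξ = g (k+1) Δ`. -/
theorem Good.descend (h : Sm R C δ) (hx : x ∈ U) (hx' : x' ∈ U) {t m : ℝ}
    (hg : Good D (k + 1) t m x x') : Good D k (t / 2) m x x' := by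
  have ht := hg.t_pos
  have hk : kt D k x ≤ 2 * kt D (k + 1) x := by rw [kt_succ]; linarith [κ_nn (D := D) hx (k + 1)]
  have hm : t ^ 2 * kt D k x ≤ 2 * m := by nlinarith [hg.kt_le, sq_nonneg t]
  refine ⟨half_pos ht, by linarith [hg.t_le], hg.m_nn, hg.dist_le.trans_eq (by rw [rr_succ D k]; ring),
    by linarith [hg.m_nn], ?_⟩
  set ξ := (D.G (k + 1) x)⁻¹ *ᵥ (D.u x' - D.u x) with hξ
  have e : (D.G k x)⁻¹ *ᵥ (D.u x' - D.u x) = ξ - (D.G k x)⁻¹ *ᵥ (D.G k x - D.G (k + 1) x) *ᵥ ξ := by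
    rw [sub_mulVec, mulVec_sub _ (D.G k x *ᵥ ξ), pd_inv_mul (D.G_pd k x hx), hξ,
      pd_mul_inv (D.G_pd _ x hx), sub_sub_cancel]
  have hr := rr_pos D (k + 1)
  have hC := h.C_pos
  have hR := h.R_pos
  have hδ := h.δ_pos
  have a1 : sn (D.A k x) ξ ≤ 3 / 2 * sn (D.A (k + 1) x) ξ := sn_le_mul (A_psd hx _) (by norm_num) (by
    rw [qA_succ hx]
    linarith [psd_qf (A_psd (D := D) hx k) ξ, psd_qf (D.Dp_psd k x hx) ξ])
  have a2 := hg.spl
  rw [← hξ] at a2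
  have a3 : t * √(kt D k x) ≤ 3 / 2 * √m := by
    refine abs_le_of_sq_le_sq' ?_ (by positivity) |>.2
    rw [mul_pow, mul_pow, Real.sq_sqrt (kt_nn hx k), Real.sq_sqrt hg.m_nn]
    linarith [hg.m_nn]
  have a4 : sn (D.G k x) ξ ≤ 2 * (C * (R * t ^ 2 * rr D (k + 1))) := by
    have b1 := G_down (D := D) h hx k ξ
    have b2 := u_up h hx hx' (hg.dist_le.trans (mul_le_mul_of_nonneg_right
      (mul_le_of_le_one_right hR.le (pow_le_one₀ ht.le hg.t_le)) hr.le))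
    have b3 := mul_le_mul_of_nonneg_left hg.dist_le hC.le
    rw [hξ, sn_mul_inv (D.G_pd _ x hx), ← hξ] at b1
    linarith [sn_nonneg (D.G (k + 1) x)⁻¹ (D.u x' - D.u x)]
  set W := C * t * rr D (k + 1) * √m with hW
  have W0 : 0 ≤ W := by positivity
  have a5 : √(kt D k x) * sn (D.G k x) ξ ≤ 3 * R * W :=
    calc _ ≤ √(kt D k x) * (2 * (C * (R * t ^ 2 * rr D (k + 1)))) := by gcongr
      _ = t * √(kt D k x) * (2 * C * R * t * rr D (k + 1)) := by ring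
      _ ≤ 3 / 2 * √m * (2 * C * R * t * rr D (k + 1)) := by gcongr
      _ = _ := by rw [hW]; ring
  have a6 : sn (TT D k x) ξ ≤ 4 * R * W := by
    have := sn_madd_le (A_psd (D := D) hx k) (G_psd (D := D) hx k) (kt_nn (D := D) hx k) ξ
    have b1 := mul_le_mul_of_nonneg_right h.R_ge W0
    rw [TT]
    linarith
  have a7 : sn (D.A k x) ((D.G k x)⁻¹ *ᵥ (D.G k x - D.G (k + 1) x) *ᵥ ξ) ≤ W / 2 :=
    calc _ ≤ _ := A_le h hx k _
      _ = 2 * δ * sn (D.G k x)⁻¹ ((D.G k x - D.G (k + 1) x) *ᵥ ξ) := by rw [sn_mul_inv (D.G_pd _ x hx)]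
      _ ≤ 2 * δ * (3 * C ^ 2 * δ * (4 * R * W)) := by
        gcongr
        exact (G_succ_vec h hx k ξ).trans (by gcongr)
      _ = 24 * (C ^ 2 * R * δ) * δ * W := by ring
      _ ≤ 24 * (1 / 1000) * (1 / 16000) * W := by gcongr; exacts [h.small, h.δ_le]
      _ ≤ _ := by linarith
  rw [e, rr_succ D k]
  refine (sn_sub_le (A_psd hx k) _ _).trans ?_
  linarith

theorem Good.sqrt_le (hx : x ∈ U) {t m : ℝ} (hg : Good D k t m x x') : t * √(kt D k x) ≤ √m :=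
  Real.le_sqrt_of_sq_le (by rw [mul_pow, Real.sq_sqrt (kt_nn hx k)]; exact hg.kt_le)

theorem Good.T_spl (h : Sm R C δ) (hx : x ∈ U) (hx' : x' ∈ U) {t m : ℝ}
    (hg : Good D k t m x x') :
    sn (TT D k x) ((D.G k x)⁻¹ *ᵥ (D.u x' - D.u x)) ≤ 2 * C * R * t * rr D k * √m := by
  have hr := rr_pos D k
  have hC := h.C_pos
  have hR := h.R_pos
  have ht := hg.t_pos
  have a1 := sn_madd_le (A_psd (D := D) hx k) (G_psd (D := D) hx k) (kt_nn (D := D) hx k)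
    ((D.G k x)⁻¹ *ᵥ (D.u x' - D.u x))
  have a2 := u_up h hx hx' (hg.dist_le.trans (mul_le_mul_of_nonneg_right
      (mul_le_of_le_one_right hR.le (pow_le_one₀ ht.le hg.t_le)) hr.le))
  have a3 : √(kt D k x) * sn (D.G k x)⁻¹ (D.u x' - D.u x) ≤ R * (C * t * rr D k * √m) :=
    calc _ ≤ √(kt D k x) * (C * (R * t ^ 2 * rr D k)) := by
          gcongr
          exact a2.trans (by gcongr; exact hg.dist_le)
      _ = t * √(kt D k x) * (C * R * t * rr D k) := by ring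
      _ ≤ √m * (C * R * t * rr D k) := by gcongr; exact hg.sqrt_le hx
      _ = _ := by ring
  have a4 : C * t * rr D k * √m ≤ R * (C * t * rr D k * √m) :=
    le_mul_of_one_le_left (by positivity) (by linarith [h.R_ge])
  rw [sn_mul_inv (D.G_pd _ x hx)] at a1
  rw [TT]
  linarith [hg.spl]

theorem Good.T_le (hx : x ∈ U) {t m : ℝ} (hg : Good D k t m x x') (ζ : V n) :
    t * sn (TT D k x) ζ ≤ sn (D.A k x + m • D.G k x) ζ := by
  refine Real.le_sqrt_of_sq_le ?_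
  rw [mul_pow, sn_sq (T_psd hx k), qT, qf_madd, qf_msmul, mul_add, ← mul_assoc]
  exact add_le_add (mul_le_of_le_one_left (psd_qf (A_psd hx k) ζ) (pow_le_one₀ hg.t_pos.le hg.t_le))
    (mul_le_mul_of_nonneg_right hg.kt_le (psd_qf (G_psd hx k) ζ))

theorem eta_ge (hx : x ∈ U) (K : ℝ) (k : ℕ) : 1 / 2 ≤ eta D K k x := by
  exact le_add_of_nonneg_right
    (mul_nonneg (by positivity) (Finset.sum_nonneg fun j _ => kt_nn hx j))

theorem Par.K_pos (h : Par N₀ Ca R C δ K) : 0 < K := by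
  have h1 := h.sm.C_pos
  have h2 := h.sm.R_pos
  have h3 : (0 : ℝ) < N₀ := by exact_mod_cast h.N_ge
  rw [h.K_eq]
  positivity

theorem Par.KCRδ (h : Par N₀ Ca R C δ K) : K * C * R * δ ≤ 1 / 16000 := by
  have := mul_le_mul_of_nonneg_left h.sm.R_ge
    (mul_pos (mul_pos (mul_pos h.K_pos h.sm.C_pos) h.sm.R_pos) h.sm.δ_pos).le
  linarith [h.small]

theorem Par.KRδ (h : Par N₀ Ca R C δ K) : K * R * δ ≤ 1 / 16000 := by
  have := mul_le_mul_of_nonneg_left h.sm.C_ge (mul_pos (mul_pos h.K_pos h.sm.R_pos) h.sm.δ_pos).le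
  linarith [h.KCRδ]

theorem Par.Kδ (h : Par N₀ Ca R C δ K) : K * δ ≤ 1 / 16000 := by
  have := mul_le_mul_of_nonneg_left h.sm.R_ge (mul_pos h.K_pos h.sm.δ_pos).le
  linarith [h.KRδ, mul_pos h.K_pos h.sm.δ_pos]

theorem eta_le (h : Par N₀ Ca R C δ K) (hx : x ∈ U) (k : ℕ) : eta D K k x ≤ 3 / 4 := by
  have h1 := mul_le_mul_of_nonneg_left (kt_sum (D := D) hx k) (by positivity : 0 ≤ 100 * K ^ 2)
  have h2 := h.Kδ
  have h3 := mul_pos h.K_pos h.sm.δ_pos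
  rw [eta]
  nlinarith

theorem inv_zero (h : Sm R C δ) (D : CData n U Ca R C (δ ^ 2)) (K : ℝ) :
    Inv D K 0 D.u fun _ => 1 := by
  refine ⟨fun x hx σ hσ v => ?_, fun x hx x' _ _ σ _ v => ?_, fun x hx x' _ t m hg ζ => ?_,
    fun x hx z _ _ => ?_⟩
  · have h1 := abs_le.1 (D.G_zero x hx v)
    have h2 := D.A_zero x hx v
    have h3 : 0 ≤ v ⬝ᵥ v := by rw [← sn_one_sq]; positivity
    have h4 := mul_le_mul_of_nonneg_right h.δ2 h3
    have h5 := mul_le_mul_of_nonneg_right h.δ2 (psd_qf (G_psd (D := D) hx 0) v)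
    simp only [SS, eta, transpose_one, one_mulVec, Finset.range_zero, Finset.sum_empty]
    rcases hσ with rfl | rfl <;> linarith
  · simpa [sn_zero] using mul_nonneg (Real.sqrt_nonneg _) (sn_nonneg _ _)
  · simpa [sn_zero] using mul_nonneg hg.t_pos.le (sn_nonneg _ _)
  · simp [sn_zero]

end Crest.Agent.R247.MC
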