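import Crest.Agent.R247.C.Semi

/-! # Row 247, block C: the bump function -/

set_option autoImplicit false
set_option linter.unusedSectionVars false
set_option linter.unusedVariables false
open MeasureTheory Filter Set Metric Matrix
open scoped ENNReal NNReal Topology ContDiff

noncomputable section
namespace Crest.Agent.R247.MC
universe u

variable {n : ℕ} {G : Mat n}

/-- `(1 - |a|²)₊` for the norm of `G⁻¹`. -/
def bt (G : Mat n) (a : V n) : ℝ := max (1 - qf G⁻¹ a) 0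

theorem bt_nn (G : Mat n) (a : V n) : 0 ≤ bt G a := le_max_right _ _

theorem bt_le (hG : G.PosDef) (a : V n) : bt G a ≤ 1 := by
  exact max_le (by linarith [psd_qf hG.inv.posSemidef a]) zero_le_one

theorem bt_zero (hG : G.PosDef) {a : V n} (h : 1 ≤ sn G⁻¹ a) : bt G a = 0 :=
  max_eq_right (by rw [← sn_sq hG.inv.posSemidef]; nlinarith)

theorem bt_eq (hG : G.PosDef) {a : V n} (h : sn G⁻¹ a ≤ 1) : bt G a = 1 - sn G⁻¹ a ^ 2 := by
  rw [bt, ← sn_sq hG.inv.posSemidef]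
  exact max_eq_left (by nlinarith [sn_nonneg G⁻¹ a])

theorem bt_mul_le (hG : G.PosDef) (a : V n) : bt G a * sn G⁻¹ a ≤ 1 := by
  rcases le_total (sn G⁻¹ a) 1 with h | h
  · exact mul_le_one₀ (bt_le hG a) (sn_nonneg _ _) h
  · rw [bt_zero hG h, zero_mul]
    exact zero_le_one

/-- `bt = 1 - (min |a| 1)²`. -/
theorem bt_lip (hG : G.PosDef) (a a' : V n) : |bt G a' - bt G a| ≤ 2 * sn G⁻¹ (a' - a) := by
  have h1 := sn_add_le hG.inv.posSemidef (a' - a) a
  have h2 := sn_add_le hG.inv.posSemidef (a - a') a'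
  rw [sub_add_cancel] at h1 h2
  rw [sn_sub_comm] at h2
  have h3 := sn_nonneg G⁻¹ a
  have h4 := sn_nonneg G⁻¹ a'
  have h5 := sn_nonneg G⁻¹ (a' - a)
  rcases le_total (sn G⁻¹ a) 1 with h | h <;> rcases le_total (sn G⁻¹ a') 1 with h' | h' <;>
    first | rw [bt_eq hG h] | rw [bt_zero hG h]
  all_goals first | rw [bt_eq hG h'] | rw [bt_zero hG h']
  all_goals exact abs_le.2 ⟨by nlinarith, by nlinarith⟩

/-- If `|a| ≤ 1` write `t' a' - t a = t' (a' - a) + (t' - t) a`; symmetric; else both vanish. -/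
theorem bt_smul_lip (hG : G.PosDef) (a a' : V n) :
    sn G⁻¹ (bt G a' • a' - bt G a • a) ≤ 3 * sn G⁻¹ (a' - a) := by
  have key : ∀ a a' : V n, sn G⁻¹ a ≤ 1 →
      sn G⁻¹ (bt G a' • a' - bt G a • a) ≤ 3 * sn G⁻¹ (a' - a) := fun a a' h => by
    have e : bt G a' • a' - bt G a • a = bt G a' • (a' - a) + (bt G a' - bt G a) • a := by module
    rw [e]
    refine (sn_add_le hG.inv.posSemidef _ _).trans ?_
    rw [sn_smul, sn_smul, abs_of_nonneg (bt_nn G a')]
    linarith [mul_le_of_le_one_left (sn_nonneg G⁻¹ (a' - a)) (bt_le hG a'), bt_lip hG a a',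
      mul_le_of_le_one_right (abs_nonneg (bt G a' - bt G a)) h]
  rcases le_total (sn G⁻¹ a) 1 with h | h
  · exact key a a' h
  rcases le_total (sn G⁻¹ a') 1 with h' | h'
  · rw [sn_sub_comm, sn_sub_comm _ a']
    exact key a' a h'
  · rw [bt_zero hG h, bt_zero hG h', zero_smul, zero_smul, sub_zero, sn_zero]
    linarith [sn_nonneg G⁻¹ (a' - a)]

/-- `t'² - t² + 4 t ⟨a, h⟩ = (t' - t)² + 2 t (t' - t + 2 ⟨a, h⟩)`; for `t > 0` the last bracket is
`(|a'|² - 1)₊ - |h|²`. -/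
theorem bt_taylor (hG : G.PosDef) (a a' : V n) :
    |bt G a' ^ 2 - bt G a ^ 2 + 4 * bt G a * bf G⁻¹ a (a' - a)| ≤ 16 * sn G⁻¹ (a' - a) ^ 2 := by
  have h1 := abs_le.1 (bt_lip hG a a')
  have h5 := sn_nonneg G⁻¹ (a' - a)
  have h6 := sq_le_sq' h1.1 h1.2
  have t0 := bt_nn G a
  rcases le_total (sn G⁻¹ a) 1 with h | h
  · have h2 := abs_le.1 ((abs_bf_le hG.inv.posSemidef a (a' - a)).trans (mul_le_of_le_one_left h5 h))
    rcases le_total (sn G⁻¹ a') 1 with h' | h'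
    · have e := qf_vadd (psd_symm hG.inv.posSemidef) a (a' - a)
      simp only [add_sub_cancel, ← sn_sq hG.inv.posSemidef] at e
      have e2 : bt G a' - bt G a + 2 * bf G⁻¹ a (a' - a) = -sn G⁻¹ (a' - a) ^ 2 := by
        rw [bt_eq hG h, bt_eq hG h']
        linarith
      have e3 : bt G a' ^ 2 - bt G a ^ 2 + 4 * bt G a * bf G⁻¹ a (a' - a) =
          (bt G a' - bt G a) ^ 2 - 2 * (bt G a * sn G⁻¹ (a' - a) ^ 2) := by
        linear_combination 2 * bt G a * e2
      have h7 := mul_le_of_le_one_left (sq_nonneg (sn G⁻¹ (a' - a))) (bt_le hG a)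
      rw [e3]
      exact abs_le.2 ⟨by linarith [sq_nonneg (bt G a' - bt G a), sq_nonneg (sn G⁻¹ (a' - a))],
        by nlinarith [mul_nonneg t0 (sq_nonneg (sn G⁻¹ (a' - a)))]⟩
    · rw [bt_zero hG h'] at h1 h6 ⊢
      exact abs_le.2 ⟨by nlinarith, by nlinarith⟩
  · rw [bt_zero hG h] at h6 ⊢
    exact abs_le.2 ⟨by nlinarith, by nlinarith⟩

end Crest.Agent.R247.MC
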