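import Crest.Agent.R247.C.Semi

/-! # Row 247, block C: definitions (helper18).  Invariants of the construction, level by level -/

set_option autoImplicit false
set_option linter.unusedSectionVars false
set_option linter.unusedVariables false
open MeasureTheory Filter Set Metric Matrix
open scoped ENNReal NNReal Topology ContDiff

noncomputable section
namespace Crest.Agent.R247.MC
universe u

variable {n : ℕ} {M : Type u} [MetricSpace M] {U : Set M} {Ca R C ε : ℝ}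

/-- Basic smallness (`ε = δ²`). -/
structure Sm (R C δ : ℝ) : Prop where
  R_ge : 16 ≤ R
  C_ge : 1 ≤ C
  δ_pos : 0 < δ
  small : C ^ 2 * R * δ ≤ 1 / 1000

/-- The constants. -/
structure Par (N₀ : ℕ) (Ca R C δ K : ℝ) : Prop where
  Ca_ge : 1 ≤ Ca
  R_eq : R = 16 * Ca ^ 2
  sm : Sm R C δ
  N_ge : 1 ≤ N₀
  K_eq : K = 2000 * N₀ * C ^ 4 * R
  small : K * C * R ^ 2 * δ ≤ 1 / 1000

/-- The scale. -/
def rr (D : CData n U Ca R C ε) (k : ℕ) : ℝ := rk D.r₀ k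
/-- `κ̃`. -/
def kt (D : CData n U Ca R C ε) (k : ℕ) (x : M) : ℝ := acc (fun j => D.κ j x) k
/-- `A + κ̃ G`. -/
def TT (D : CData n U Ca R C ε) (k : ℕ) (x : M) : Mat n := D.A k x + kt D k x • D.G k x
/-- The height of the barrier. -/
def eta (D : CData n U Ca R C ε) (K : ℝ) (k : ℕ) (x : M) : ℝ :=
  1 / 2 + 100 * K ^ 2 * ∑ j ∈ Finset.range k, kt D j x
/-- The barrier `η - σ (B G Bᵀ - 1) - B A Bᵀ / 2` at `v`. -/
def SS (D : CData n U Ca R C ε) (K : ℝ) (k : ℕ) (B : M → Mat n) (σ : ℝ) (x : M) (v : V n) : ℝ :=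
  eta D K k x * (v ⬝ᵥ v) - σ * (qf (D.G k x) ((B x)ᵀ *ᵥ v) - v ⬝ᵥ v) -
    qf (D.A k x) ((B x)ᵀ *ᵥ v) / 2
/-- The directional size `τ(v)`. -/
def tau (D : CData n U Ca R C ε) (K : ℝ) (k : ℕ) (B : M → Mat n) (σ : ℝ) (x : M) (v : V n) : ℝ :=
  √(SS D K k B σ x v + qf (TT D k x) ((B x)ᵀ *ᵥ v))
/-- The correction at the point `p`. -/
def Lam (D : CData n U Ca R C ε) (k : ℕ) (B : M → Mat n) (p : M) : Mat n :=
  (-(4 * C)) • ((B p * D.G k p * (B p)ᵀ - 1) * B p * D.Y k p * (D.G k p)⁻¹)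

/-- `x'` is at distance `t² R r_k` from `x` and `u x' - u x` is almost killed by `A`. -/
structure Good (D : CData n U Ca R C ε) (k : ℕ) (t m : ℝ) (x x' : M) : Prop where
  t_pos : 0 < t
  t_le : t ≤ 1
  m_nn : 0 ≤ m
  dist_le : dist x x' ≤ R * t ^ 2 * rr D k
  kt_le : t ^ 2 * kt D k x ≤ m
  spl : sn (D.A k x) ((D.G k x)⁻¹ *ᵥ (D.u x' - D.u x)) ≤ C * t * rr D k * √m

/-- The invariants at level `k`. -/
structure Inv (D : CData n U Ca R C ε) (K : ℝ) (k : ℕ) (F : M → V n) (B : M → Mat n) : Prop where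
  bar : ∀ x ∈ U, ∀ σ : ℝ, σ = 1 ∨ σ = -1 → ∀ v, 0 ≤ SS D K k B σ x v
  left : ∀ x ∈ U, ∀ x' ∈ U, dist x x' ≤ R * rr D k → ∀ σ : ℝ, σ = 1 ∨ σ = -1 → ∀ v,
    C * R * rr D k * sn (D.G k x) ((B x' - B x)ᵀ *ᵥ v) ≤
      √(SS D K k B σ x v) * sn (D.G k x)⁻¹ (D.u x' - D.u x)
  right : ∀ x ∈ U, ∀ x' ∈ U, ∀ t m, Good D k t m x x' → ∀ ζ,
    sn 1 ((B x' - B x) *ᵥ D.G k x *ᵥ ζ) ≤ t * sn (D.A k x + m • D.G k x) ζ
  tay : ∀ x ∈ U, ∀ z ∈ U, dist x z ≤ rr D k →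
    3 * R * rr D k * sn 1 (F z - F x - B x *ᵥ (D.u z - D.u x)) ≤ dist x z ^ 2

open Classical in
/-- A net with bumps `φ b`, their gradients `dφ b`, and base points `p b`. -/
structure Net (D : CData n U Ca R C ε) (k N₀ : ℕ) where
  s : Finset M
  p : M → M
  φ : M → M → ℝ
  dφ : M → M → V n
  p_mem : ∀ b ∈ s, p b ∈ U
  p_dist : ∀ b ∈ s, dist b (p b) ≤ R / 2 * rr D k
  p_min : ∀ b ∈ s, ∀ x ∈ U, dist x b ≤ R / 2 * rr D k → kt D k (p b) ≤ 2 * kt D k x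
  card : ∀ x ∈ U, (s.filter fun b => dist x b ≤ R / 2 * rr D k).card ≤ N₀
  cover : ∀ x ∈ U, ∃ b ∈ s, dist x b ≤ rr D k ∧ 1 / 2 ≤ φ b x
  φ_nn : ∀ b x, 0 ≤ φ b x
  φ_le : ∀ b ∈ s, ∀ x, φ b x ≤ 1
  supp : ∀ b ∈ s, ∀ x ∈ U, R / 4 * rr D k < dist x b → φ b x = 0 ∧ dφ b x = 0
  dφ_le : ∀ b ∈ s, ∀ x ∈ U, dist x b ≤ R / 2 * rr D k → ∀ z,
    rr D k * sn (D.G k x) (dφ b z) ≤ 4
  φ_lip : ∀ b ∈ s, ∀ x ∈ U, dist x b ≤ R / 2 * rr D k → ∀ z,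
    rr D k * |φ b z - φ b x| ≤ 4 * sn (D.G k x)⁻¹ (D.u z - D.u x)
  dφ_lip : ∀ b ∈ s, ∀ x ∈ U, dist x b ≤ R / 2 * rr D k → ∀ z,
    rr D k ^ 2 * sn (D.G k x) (dφ b z - dφ b x) ≤ 16 * sn (D.G k x)⁻¹ (D.u z - D.u x)
  tay : ∀ b ∈ s, ∀ x ∈ U, dist x b ≤ R / 2 * rr D k → ∀ z,
    rr D k ^ 2 * |φ b z - φ b x - dφ b x ⬝ᵥ (D.u z - D.u x)| ≤
      16 * sn (D.G k x)⁻¹ (D.u z - D.u x) ^ 2

variable {D : CData n U Ca R C ε} {k N₀ : ℕ}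

/-- One term of the increment of `F`. -/
def Net.fb (ν : Net D k N₀) (B : M → Mat n) (b x : M) : V n :=
  ν.φ b x • Lam D k B (ν.p b) *ᵥ (D.u x - D.u (ν.p b))
/-- One term of the increment of `B`. -/
def Net.db (ν : Net D k N₀) (B : M → Mat n) (b x : M) : Mat n :=
  ν.φ b x • Lam D k B (ν.p b) +
    vecMulVec (Lam D k B (ν.p b) *ᵥ (D.u x - D.u (ν.p b))) (ν.dφ b x)
def Net.dF (ν : Net D k N₀) (B : M → Mat n) (x : M) : V n := ∑ b ∈ ν.s, ν.fb B b x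
def Net.dB (ν : Net D k N₀) (B : M → Mat n) (x : M) : Mat n := ∑ b ∈ ν.s, ν.db B b x

end Crest.Agent.R247.MC
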