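import Crest.Agent.R247.C.Basic
import Crest.Agent.R247.C.Bump

/-! # Row 247, block C: nets, packing, base points -/

set_option autoImplicit false
set_option linter.unusedSectionVars false
set_option linter.unusedVariables false
open MeasureTheory Filter Set Metric Matrix
open scoped ENNReal NNReal Topology ContDiff

noncomputable section
namespace Crest.Agent.R247.MC
universe u

theorem sep_card {X : Type*} [PseudoMetricSpace X] {W : Set X} (hW : TotallyBounded W) {r : ℝ}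
    (hr : 0 < r) : ∃ N : ℕ, ∀ {ι : Type u} (s : Finset ι) (a : ι → X), (∀ b ∈ s, a b ∈ W) →
      (∀ b ∈ s, ∀ b' ∈ s, b ≠ b' → r ≤ dist (a b) (a b')) → s.card ≤ N := by
  obtain ⟨t, ht, hc⟩ := Metric.totallyBounded_iff.1 hW (r / 2) (half_pos hr)
  refine ⟨ht.toFinset.card, fun s a h1 h2 => ?_⟩
  have : ∀ b, ∃ y, b ∈ s → y ∈ t ∧ dist (a b) y < r / 2 := fun b => by
    by_cases hb : b ∈ s
    · obtain ⟨y, hy, hy'⟩ := mem_iUnion₂.1 (hc (h1 b hb))
      exact ⟨y, fun _ => ⟨hy, hy'⟩⟩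
    · exact ⟨a b, fun h => absurd h hb⟩
  choose c hc using this
  refine Finset.card_le_card_of_injOn c (fun b hb => by simpa using (hc b hb).1)
    fun b hb b' hb' h => by_contra fun hne => ?_
  have h3 := (hc b' hb').2
  rw [← h] at h3
  linarith [h2 b hb b' hb' hne, dist_triangle_right (a b) (a b') (c b), (hc b hb).2]

open scoped MatrixOrder in
theorem exists_factor {n : ℕ} {A : Mat n} (hA : A.PosSemidef) :
    ∃ L : Mat n, ∀ a, sn 1 (L *ᵥ a) = sn A a := by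
  obtain ⟨L, rfl⟩ := CStarAlgebra.nonneg_iff_eq_star_mul_self.mp hA.nonneg
  refine ⟨L, fun a => ?_⟩
  have := qf_conj Lᵀ 1 a
  rw [transpose_transpose, Matrix.mul_one] at this
  rw [sn, ← this, sn, star_eq_conjTranspose, conjTranspose_eq_transpose_of_trivial]

/-- Packing in `ℝⁿ` for the norm of any positive definite matrix (factor `G⁻¹ = Lᵀ L`, cover the
closed ball of radius `ρ` of `E n` by finitely many balls of radius `1/2`). -/
theorem packing (n : ℕ) (ρ : ℝ) : ∃ N₀ : ℕ, 1 ≤ N₀ ∧ ∀ {ι : Type u} (G : Mat n), G.PosDef →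
    ∀ (s : Finset ι) (a : ι → V n), (∀ b ∈ s, sn G⁻¹ (a b) ≤ ρ) →
      (∀ b ∈ s, ∀ b' ∈ s, b ≠ b' → 1 ≤ sn G⁻¹ (a b - a b')) → s.card ≤ N₀ := by
  obtain ⟨N, hN⟩ := sep_card (isCompact_closedBall (0 : E n) ρ).totallyBounded one_pos
  refine ⟨N + 1, by omega, fun G hG s a h1 h2 => ?_⟩
  obtain ⟨L, hL⟩ := exists_factor hG.inv.posSemidef
  refine (hN s (fun b => WithLp.toLp 2 (L *ᵥ a b)) (fun b hb => ?_) fun b hb b' hb' h => ?_).trans
    (by omega)
  · rw [mem_closedBall_zero_iff, norm_toLp_eq, hL]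
    exact h1 b hb
  · rw [dist_eq_norm, ← WithLp.toLp_sub, norm_toLp_eq, ← mulVec_sub, hL]
    exact h2 b hb b' hb' h

/-- A finite maximal separated set. -/
theorem exists_sep {M : Type u} [MetricSpace M] {U : Set M} (hU : TotallyBounded U) {r : ℝ}
    (hr : 0 < r) : ∃ s : Finset M, (∀ b ∈ s, b ∈ U) ∧ (∀ b ∈ s, ∀ b' ∈ s, b ≠ b' → r ≤ dist b b') ∧
      ∀ x ∈ U, ∃ b ∈ s, dist x b ≤ r := by
  classical
  obtain ⟨N, hN⟩ := sep_card.{u} hU hr
  let P : ℕ → Prop := fun m => ∃ s : Finset M, (∀ b ∈ s, b ∈ U) ∧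
    (∀ b ∈ s, ∀ b' ∈ s, b ≠ b' → r ≤ dist b b') ∧ s.card = m
  obtain ⟨s, h1, h2, h3⟩ : P (Nat.findGreatest P N) :=
    Nat.findGreatest_spec (m := 0) (Nat.zero_le N) ⟨∅, by simp, by simp, rfl⟩
  refine ⟨s, h1, h2, fun x hx => by_contra fun hne => ?_⟩
  push Not at hne
  have hxs : x ∉ s := fun h => by linarith [hne x h, dist_self x]
  have a1 : ∀ b ∈ insert x s, b ∈ U := by simpa [hx] using h1
  have a2 : ∀ b ∈ insert x s, ∀ b' ∈ insert x s, b ≠ b' → r ≤ dist b b' := by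
    simp only [Finset.mem_insert]
    rintro b (rfl | hb) b' (rfl | hb') h
    exacts [absurd rfl h, (hne _ hb').le, dist_comm b b' ▸ (hne _ hb).le, h2 b hb b' hb' h]
  have a3 := Nat.le_findGreatest (P := P) (hN _ id a1 a2) ⟨_, a1, a2, rfl⟩
  rw [Finset.card_insert_of_notMem hxs] at a3
  omega

theorem exists_near_min {X : Type*} (f : X → ℝ) {W : Set X} (hW : W.Nonempty) {e : ℝ} (he : 0 < e)
    (h : ∀ x ∈ W, e ≤ f x) : ∃ p ∈ W, ∀ x ∈ W, f p ≤ 2 * f x := by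
  have hb : BddBelow (f '' W) := ⟨e, by rintro _ ⟨x, hx, rfl⟩; exact h x hx⟩
  have h1 : e ≤ sInf (f '' W) := le_csInf (hW.image f) (by rintro _ ⟨x, hx, rfl⟩; exact h x hx)
  obtain ⟨_, ⟨p, hp, rfl⟩, h2⟩ := exists_lt_of_csInf_lt (hW.image f)
    (by linarith : sInf (f '' W) < 2 * sInf (f '' W))
  exact ⟨p, hp, fun x hx => by linarith [csInf_le hb ⟨x, hx, rfl⟩]⟩

/-- Recipe: `s` from `exists_sep`; `p b` almost minimises `kt` on `U ∩ closedBall b (R/2 r)`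
(`κ_pos`, `κ_le_kt`); `a b x = (2 Ca r)⁻¹ • (u x - u b)`, `φ b x = bt (G k b) (a b x) ^ 2`,
`dφ b x = (-4 * bt .. / (2 Ca r)) • (G k b)⁻¹ *ᵥ a b x`; `G_cmp`, `g_cmp`, `up₁`, `u_low`;
`packing` for `(4 Ca / r) • (u b - u x)` with `ρ = 2 Ca C R`. -/
theorem exists_net (n : ℕ) {Ca : ℝ} (hCa : 1 ≤ Ca) (C : ℝ) : ∃ N₀ : ℕ, 1 ≤ N₀ ∧ ∀ δ : ℝ,
    Sm (16 * Ca ^ 2) C δ → ∀ {M : Type u} [MetricSpace M] {U : Set M}
      (D : CData n U Ca (16 * Ca ^ 2) C (δ ^ 2)) (k : ℕ), Nonempty (Net D k N₀) := by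
  classical
  obtain ⟨N₀, hN, hpk⟩ := packing.{u} n (2 * Ca * C * (16 * Ca ^ 2))
  refine ⟨N₀, hN, fun δ h M _ U D k => ?_⟩
  generalize hRe : 16 * Ca ^ 2 = R at *
  have hr := rr_pos D k
  have hR := h.R_pos
  have hC := h.C_pos
  obtain ⟨s, s1, s2, s3⟩ := exists_sep D.tb hr
  obtain ⟨e, he, he'⟩ := D.κ_pos k
  have hp : ∀ b, ∃ p, b ∈ U → p ∈ U ∩ closedBall b (R / 2 * rr D k) ∧
      ∀ x ∈ U ∩ closedBall b (R / 2 * rr D k), kt D k p ≤ 2 * kt D k x := fun b => by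
    by_cases hb : b ∈ U
    · obtain ⟨p, h1, h2⟩ := exists_near_min (kt D k) (W := U ∩ closedBall b (R / 2 * rr D k))
        ⟨b, hb, mem_closedBall_self (by positivity)⟩ he fun x hx => (he' x hx.1).trans (κ_le_kt hx.1 k)
      exact ⟨p, fun _ => ⟨h1, h2⟩⟩
    · exact ⟨b, fun h => absurd h hb⟩
  choose p hp using hp
  set l : ℝ := (2 * Ca * rr D k)⁻¹ with hl
  have l0 : 0 < l := by positivity
  have l1 : 2 * Ca * rr D k * l = 1 := mul_inv_cancel₀ (by positivity)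
  have l2 : rr D k * l ≤ 1 / 2 := by nlinarith [mul_pos hr l0]
  let a : M → M → V n := fun b x => l • (D.u x - D.u b)
  have ea : ∀ b x z, a b z - a b x = l • (D.u z - D.u x) := fun b x z => by simp only [a]; module
  have hd' : ∀ {x b : M}, dist x b ≤ R / 2 * rr D k → dist x b ≤ R * rr D k := fun h1 => by
    linarith [mul_pos hR hr]
  have ha : ∀ b ∈ s, ∀ x ∈ U, dist x b ≤ R / 2 * rr D k → ∀ z,
      rr D k * sn (D.G k b)⁻¹ (a b z - a b x) ≤ sn (D.G k x)⁻¹ (D.u z - D.u x) := fun b hb x hx hd z => by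
    rw [ea, sn_smul, abs_of_pos l0, ← mul_assoc]
    linarith [mul_le_mul_of_nonneg_right l2 (sn_nonneg (D.G k b)⁻¹ (D.u z - D.u x)),
      g_cmp h hx (s1 b hb) (hd' hd) (D.u z - D.u x)]
  have hG : ∀ b ∈ s, ∀ x ∈ U, dist x b ≤ R / 2 * rr D k → ∀ y,
      rr D k * sn (D.G k x) ((-4 * l) • (D.G k b)⁻¹ *ᵥ y) ≤ 4 * sn (D.G k b)⁻¹ y := fun b hb x hx hd y => by
    have := G_cmp h (s1 b hb) hx (by rw [dist_comm]; exact hd' hd) ((D.G k b)⁻¹ *ᵥ y)
    rw [sn_mul_inv (D.G_pd k b (s1 b hb))] at this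
    rw [sn_smul, neg_mul, abs_neg, abs_of_pos (by positivity)]
    linarith [mul_le_mul l2 this (sn_nonneg _ _) one_half_pos.le]
  refine ⟨⟨s, p, fun b x => bt (D.G k b) (a b x) ^ 2,
    fun b x => (-4 * l) • (D.G k b)⁻¹ *ᵥ bt (D.G k b) (a b x) • a b x,
    fun b hb => (hp b (s1 b hb)).1.1, fun b hb => mem_closedBall'.1 (hp b (s1 b hb)).1.2,
    fun b hb x hx hd => (hp b (s1 b hb)).2 x ⟨hx, hd⟩, fun x hx => ?_, fun x hx => ?_,
    fun b x => sq_nonneg _, fun b hb x => pow_le_one₀ (bt_nn _ _) (bt_le (D.G_pd k b (s1 b hb)) _),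
    fun b hb x hx hd => ?_, fun b hb x hx hd z => ?_,
    fun b hb x hx hd z => ?_, fun b hb x hx hd z => ?_, fun b hb x hx hd z => ?_⟩⟩
  · refine hpk _ (D.G_pd k x hx) _ (fun b => (4 * Ca / rr D k) • (D.u b - D.u x)) (fun b hb => ?_)
      fun b hb b' hb' hne => ?_
    · obtain ⟨h1, h2⟩ := Finset.mem_filter.1 hb
      rw [sn_smul, abs_of_pos (by positivity), div_mul_eq_mul_div, div_le_iff₀ hr]
      linarith [mul_le_mul_of_nonneg_left ((u_up h hx (s1 b h1) (hd' h2)).trans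
        (mul_le_mul_of_nonneg_left h2 hC.le)) (by positivity : 0 ≤ 4 * Ca)]
    · obtain ⟨h1, h2⟩ := Finset.mem_filter.1 hb'
      have h3 := s2 b' h1 b (Finset.mem_filter.1 hb).1 hne.symm
      have h4 := u_low (k := k) (D := D) h hCa (s1 b' h1) (s1 b (Finset.mem_filter.1 hb).1)
        (by linarith [rr_succ D k])
      rw [← smul_sub, sub_sub_sub_cancel_right, sn_smul, abs_of_pos (by positivity), div_mul_eq_mul_div,
        one_le_div hr]
      linarith [mul_le_mul_of_nonneg_left (g_cmp h hx (s1 b' h1) (hd' h2) (D.u b - D.u b'))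
        (by positivity : 0 ≤ 2 * Ca)]
  · obtain ⟨b, hb, hd⟩ := s3 x hx
    refine ⟨b, hb, hd, ?_⟩
    have h1 : sn (D.G k b)⁻¹ (D.u x - D.u b) ≤ Ca * rr D k := sn_le_of_sq (by positivity)
      ((D.up₁ k b (s1 b hb) x hx (by change _ ≤ 4 * rr D k; rw [dist_comm]; linarith)).trans (by
        rw [mul_pow, dist_comm]; gcongr))
    have h2 : sn (D.G k b)⁻¹ (a b x) ≤ 1 / 2 := by
      rw [sn_smul, abs_of_pos l0]
      linarith [mul_le_mul_of_nonneg_left h1 l0.le]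
    rw [bt_eq (D.G_pd k b (s1 b hb)) (by linarith)]
    have h3 := pow_le_pow_left₀ (sn_nonneg _ _) h2 2
    nlinarith
  · have h1 : 4 * Ca ^ 2 * rr D k < dist b x := by
      rw [dist_comm]
      linarith [congrArg (· * rr D k) hRe]
    have h2 := u_low (k := k) (D := D) h hCa (s1 b hb) hx
      (by nlinarith [rr_succ D k, mul_le_mul_of_nonneg_right (one_le_pow₀ (n := 2) hCa) hr.le])
    have h3 : 2 * Ca * rr D k ≤ sn (D.G k b)⁻¹ (D.u x - D.u b) :=
      le_of_mul_le_mul_left (by linarith) (by positivity : 0 < 2 * Ca)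
    rw [bt_zero (D.G_pd k b (s1 b hb)) (by
      rw [sn_smul, abs_of_pos l0]
      linarith [mul_le_mul_of_nonneg_left h3 l0.le])]
    simp
  · refine (hG b hb x hx hd _).trans ?_
    rw [sn_smul, abs_of_nonneg (bt_nn _ _)]
    linarith [bt_mul_le (D.G_pd k b (s1 b hb)) (a b z)]
  · have h1 := bt_lip (D.G_pd k b (s1 b hb)) (a b x) (a b z)
    have h2 : |bt (D.G k b) (a b z) + bt (D.G k b) (a b x)| ≤ 2 := by
      rw [abs_of_nonneg (add_nonneg (bt_nn _ _) (bt_nn _ _))]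
      linarith [bt_le (D.G_pd k b (s1 b hb)) (a b x), bt_le (D.G_pd k b (s1 b hb)) (a b z)]
    rw [sq_sub_sq, abs_mul]
    linarith [mul_le_mul_of_nonneg_left (mul_le_mul h2 h1 (abs_nonneg _) zero_le_two) hr.le,
      ha b hb x hx hd z]
  · rw [← smul_sub, ← mulVec_sub, sq, mul_assoc]
    linarith [mul_le_mul_of_nonneg_left ((hG b hb x hx hd _).trans (mul_le_mul_of_nonneg_left
      (bt_smul_lip (D.G_pd k b (s1 b hb)) (a b x) (a b z)) zero_le_four)) hr.le, ha b hb x hx hd z,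
      sn_nonneg (D.G k x)⁻¹ (D.u z - D.u x)]
  · have e : ((-4 * l) • (D.G k b)⁻¹ *ᵥ bt (D.G k b) (a b x) • a b x) ⬝ᵥ (D.u z - D.u x) =
        -(4 * bt (D.G k b) (a b x) * bf (D.G k b)⁻¹ (a b x) (a b z - a b x)) := by
      rw [ea, bf_comm' (psd_symm (g_psd (s1 b hb) k)), bf_smul_left, bf, mulVec_smul, smul_dotProduct,
        smul_dotProduct, dotProduct_comm, smul_eq_mul, smul_eq_mul]
      ring
    rw [e, sub_neg_eq_add]
    have h1 := pow_le_pow_left₀ (mul_nonneg hr.le (sn_nonneg _ _)) (ha b hb x hx hd z) 2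
    linarith [mul_le_mul_of_nonneg_left (bt_taylor (D.G_pd k b (s1 b hb)) (a b x) (a b z))
      (sq_nonneg (rr D k))]

end Crest.Agent.R247.MC
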