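import Crest.Agent.R247.C.Two
import Crest.Agent.R247.C.Net

/-! # Row 247, block C: iteration and limit -/

set_option autoImplicit false
set_option linter.unusedSectionVars false
set_option linter.unusedVariables false
open MeasureTheory Filter Set Metric Matrix
open scoped ENNReal NNReal Topology ContDiff

noncomputable section
namespace Crest.Agent.R247.MC
universe u

variable {n : ℕ} {M : Type u} [MetricSpace M] {U : Set M} {Ca R C δ K : ℝ} {N₀ k : ℕ}
  {D : CData n U Ca R C (δ ^ 2)} {x x' z p : M} {F : M → V n} {B : M → Mat n}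

/-- At the level of the distance `F` is bi-Lipschitz. -/
theorem Inv.bilip (hI : Inv D K k F B) (h : Par N₀ Ca R C δ K) (hx : x ∈ U) (hz : z ∈ U)
    (h1 : rr D (k + 1) ≤ dist x z) (h2 : dist x z ≤ rr D k) :
    dist x z / (2 * Ca) - dist x z / (3 * R) ≤ sn 1 (F z - F x) ∧
      sn 1 (F z - F x) ≤ 2 * Ca * dist x z + dist x z / (3 * R) := by
  have hR := h.sm.R_pos
  have hr := rr_pos D k
  have hCa := h.Ca_ge
  have d0 : 0 ≤ dist x z := dist_nonneg
  have g0 := sn_nonneg (D.G k x)⁻¹ (D.u z - D.u x)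
  have a1 : sn 1 (F z - F x - B x *ᵥ (D.u z - D.u x)) ≤ dist x z / (3 * R) := by
    rw [le_div_iff₀ (by positivity)]
    refine le_of_mul_le_mul_left ?_ hr
    nlinarith [hI.tay x hx z hz h2]
  have a2 := hI.B_op h hx (D.u z - D.u x)
  have a3 := op_dual_low (D.G_pd k x hx) zero_le_two (hI.B_low h hx) (D.u z - D.u x)
  have a4 : sn (D.G k x)⁻¹ (D.u z - D.u x) ≤ Ca * dist x z := sn_le_of_sq (by positivity) (by
    rw [mul_pow]
    exact D.up₁ k x hx z hz (by change _ ≤ 4 * rr D k; linarith))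
  have a5 := D.low k x hx z hz h1 h2
  rw [← sn_sq (g_psd hx _), ← mul_pow] at a5
  have a6 := (abs_le_of_sq_le_sq' a5 (by positivity)).2
  have a7 : dist x z / (2 * Ca) ≤ sn 1 (B x *ᵥ (D.u z - D.u x)) := by
    rw [div_le_iff₀ (by positivity)]
    nlinarith
  have b1 := sn_add_le PosSemidef.one (F z - F x - B x *ᵥ (D.u z - D.u x)) (B x *ᵥ (D.u z - D.u x))
  have b2 := sn_sub_le PosSemidef.one (F z - F x) (F z - F x - B x *ᵥ (D.u z - D.u x))
  rw [sub_add_cancel] at b1
  rw [sub_sub_cancel] at b2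
  exact ⟨by linarith, by linarith⟩

theorem exists_bilip (h : Par N₀ Ca R C δ K) (D : CData n U Ca R C (δ ^ 2))
    (hν : ∀ k, Nonempty (Net D k N₀)) : ∃ F : M → E n, BiLip (4 * Ca) F U := by
  classical
  have hR := h.sm.R_pos
  have hCa := h.Ca_ge
  let ν : ∀ k, Net D k N₀ := fun k => (hν k).some
  let S : ℕ → (M → V n) × (M → Mat n) := fun k => Nat.rec (D.u, fun _ => 1)
    (fun k P => (fun x => P.1 x + (ν k).dF P.2 x, fun x => P.2 x + (ν k).dB P.2 x)) k
  have hS : ∀ k, Inv D K k (S k).1 (S k).2 := fun k => by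
    induction k with
    | zero => exact inv_zero h.sm D K
    | succ k ih => exact ih.step h (ν k)
  let f : M → ℕ → E n := fun x k => WithLp.toLp 2 ((S k).1 x)
  have hd : ∀ a b : V n, dist (WithLp.toLp 2 a : E n) (WithLp.toLp 2 b) = sn 1 (b - a) := fun a b => by
    rw [dist_comm, dist_eq_norm, ← WithLp.toLp_sub, norm_toLp_eq]
  have hf : ∀ x ∈ U, ∀ k, dist (f x k) (f x (k + 1)) ≤ D.r₀ / (3 * R) * (1 / 4) ^ k := fun x hx k => by
    have h1 := (hS k).dF_le h (ν k) hx
    have e : (S (k + 1)).1 x - (S k).1 x = (ν k).dF (S k).2 x := add_sub_cancel_left _ _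
    rw [hd, e, div_mul_eq_mul_div, le_div_iff₀ (by positivity), one_div, inv_pow, ← div_eq_mul_inv]
    exact (mul_comm _ _).trans_le h1
  have hl : ∀ x ∈ U, ∀ k, dist (f x k) (limUnder atTop (f x)) ≤ 4 / 3 * (rr D k / (3 * R)) :=
    fun x hx k => (dist_le_of_le_geometric_of_tendsto _ _ (by norm_num) (hf x hx)
      (cauchySeq_of_le_geometric _ _ (by norm_num) (hf x hx)).tendsto_limUnder k).trans_eq (by
        rw [rr, rk, one_div, inv_pow]
        field_simp
        norm_num)
  refine ⟨fun x => limUnder atTop (f x), fun x hx z hz => ?_⟩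
  rcases eq_or_lt_of_le (dist_nonneg : 0 ≤ dist x z) with h0 | h0
  · obtain rfl := dist_eq_zero.1 h0.symm
    simp
  have hex : ∃ i, rr D (i + 1) ≤ dist x z := by
    obtain ⟨i, hi⟩ := pow_unbounded_of_one_lt (D.r₀ / dist x z) (by norm_num : (1 : ℝ) < 4)
    refine ⟨i, ?_⟩
    have := rr_succ D i
    have h2 : rr D i ≤ dist x z := by
      rw [rr, rk, div_le_iff₀ (by positivity)]
      rw [div_lt_iff₀ h0] at hi
      linarith
    linarith [rr_pos D (i + 1)]
  have h1 := Nat.find_spec hex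
  have h3 : dist x z ≤ rr D (Nat.find hex) := by
    rcases h0 : Nat.find hex with _ | i
    · simpa [rr, rk] using (D.diam x hx z hz).le
    · exact (not_le.1 (Nat.find_min hex (by omega : i < Nat.find hex))).le
  generalize Nat.find hex = k at h1 h3
  obtain ⟨b1, b2⟩ := (hS k).bilip h hx hz h1 h3
  rw [← hd] at b1 b2
  have c1 := dist_triangle4 (f x k) (limUnder atTop (f x)) (limUnder atTop (f z)) (f z k)
  have c2 := dist_triangle4 (limUnder atTop (f x)) (f x k) (f z k) (limUnder atTop (f z))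
  rw [dist_comm (limUnder atTop (f z)) (f z k)] at c1
  rw [dist_comm (limUnder atTop (f x)) (f x k)] at c2
  have c3 : rr D k / (3 * R) ≤ 4 * (dist x z / (3 * R)) := by
    rw [mul_div_assoc', rr_succ D k]
    gcongr
  have c4 : 12 * (dist x z / (3 * R)) ≤ (4 * Ca)⁻¹ * dist x z := by
    rw [h.R_eq, inv_mul_eq_div, mul_div_assoc', div_le_div_iff₀ (by positivity) (by positivity)]
    nlinarith [mul_le_mul_of_nonneg_left hCa (mul_pos h0 (one_pos.trans_le hCa)).le]
  have c5 : dist x z / (2 * Ca) = 2 * ((4 * Ca)⁻¹ * dist x z) := by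
    field_simp
    norm_num
  have c6 : (4 * Ca)⁻¹ * dist x z ≤ Ca * dist x z :=
    mul_le_mul_of_nonneg_right ((inv_le_one_of_one_le₀ (by linarith)).trans hCa) h0.le
  have c7 : 0 ≤ dist x z / (3 * R) := by positivity
  have c8 := mul_pos (one_pos.trans_le hCa) h0
  exact ⟨by linarith [hl x hx k, hl z hz k], by linarith [hl x hx k, hl z hz k]⟩

end Crest.Agent.R247.MC
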