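import Crest.Agent.R247.C.Basic

/-! # Row 247, block C: the correction at one base point, seen from a nearby point -/

set_option autoImplicit false
set_option linter.unusedSectionVars false
set_option linter.unusedVariables false
open MeasureTheory Filter Set Metric Matrix
open scoped ENNReal NNReal Topology ContDiff

noncomputable section
namespace Crest.Agent.R247.MC
universe u

variable {n : ℕ} {M : Type u} [MetricSpace M] {U : Set M} {Ca R C δ K : ℝ} {N₀ k : ℕ}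
  {D : CData n U Ca R C (δ ^ 2)} {x x' z p : M} {F : M → V n} {B : M → Mat n}

variable {σ : ℝ}

theorem dot_nn (v : V n) : 0 ≤ v ⬝ᵥ v := by rw [← sn_one_sq]; positivity

theorem Inv.Q_bd (hI : Inv D K k F B) (h : Par N₀ Ca R C δ K) (hx : x ∈ U) (v : V n) :
    |qf (D.G k x) ((B x)ᵀ *ᵥ v) - v ⬝ᵥ v| ≤ 3 / 4 * (v ⬝ᵥ v) := by
  have h1 := hI.bar x hx 1 (.inl rfl) v
  have h2 := hI.bar x hx (-1) (.inr rfl) v
  have h3 := mul_le_mul_of_nonneg_right (eta_le (D := D) h hx k) (dot_nn v)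
  have h4 := psd_qf (A_psd (D := D) hx k) ((B x)ᵀ *ᵥ v)
  unfold SS at h1 h2
  exact abs_le.2 ⟨by linarith, by linarith⟩

theorem Inv.B_up (hI : Inv D K k F B) (h : Par N₀ Ca R C δ K) (hx : x ∈ U) (v : V n) :
    sn (D.G k x) ((B x)ᵀ *ᵥ v) ≤ 2 * sn 1 v := by
  refine sn_le_mul PosSemidef.one zero_le_two ?_
  rw [qf_one']
  linarith [(abs_le.1 (hI.Q_bd h hx v)).2, dot_nn v]

theorem Inv.B_low (hI : Inv D K k F B) (h : Par N₀ Ca R C δ K) (hx : x ∈ U) (v : V n) :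
    sn 1 v ≤ 2 * sn (D.G k x) ((B x)ᵀ *ᵥ v) := by
  refine sn_le_mul (G_psd hx k) zero_le_two ?_
  rw [qf_one']
  linarith [(abs_le.1 (hI.Q_bd h hx v)).1]

theorem Inv.S_le (hI : Inv D K k F B) (h : Par N₀ Ca R C δ K) (hx : x ∈ U) (hσ : σ = 1 ∨ σ = -1)
    (v : V n) : √(SS D K k B σ x v) ≤ 2 * sn 1 v := by
  refine Real.sqrt_le_iff.2 ⟨mul_nonneg zero_le_two (sn_nonneg _ _), ?_⟩
  have h1 := abs_le.1 (hI.Q_bd h hx v)
  have h3 := mul_le_mul_of_nonneg_right (eta_le (D := D) h hx k) (dot_nn v)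
  have h4 := psd_qf (A_psd (D := D) hx k) ((B x)ᵀ *ᵥ v)
  rw [mul_pow, sn_one_sq, SS]
  rcases hσ with rfl | rfl <;> linarith [dot_nn v]

theorem S_le_tau (hx : x ∈ U) (v : V n) : √(SS D K k B σ x v) ≤ tau D K k B σ x v := by
  exact Real.sqrt_le_sqrt (le_add_of_nonneg_right (psd_qf (T_psd hx k) _))

theorem Inv.T_le_tau (hI : Inv D K k F B) (hx : x ∈ U) (hσ : σ = 1 ∨ σ = -1) (v : V n) :
    sn (TT D k x) ((B x)ᵀ *ᵥ v) ≤ tau D K k B σ x v := by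
  exact Real.sqrt_le_sqrt (le_add_of_nonneg_left (hI.bar x hx σ hσ v))

theorem Y_le_G (h : Sm R C δ) (hp : p ∈ U) (ζ : V n) :
    sn (D.Y k p) ζ ≤ 3 * C * δ * sn (D.G k p) ζ :=
  (Y_le h hp hp (by rw [dist_self]; exact (mul_pos h.R_pos (rr_pos D k)).le) ζ).trans
    ((mul_le_mul_of_nonneg_left (T_le h hp k ζ) h.C_pos.le).trans_eq (by ring))

/-- `g_p G ξ - ξ = g_p (G - G_p) ξ`. -/
theorem Y_transfer (h : Sm R C δ) (hx : x ∈ U) (hp : p ∈ U) (hd : dist x p ≤ R * rr D k) (ξ : V n) :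
    sn (D.Y k p) ((D.G k p)⁻¹ *ᵥ D.G k x *ᵥ ξ - ξ) ≤ 18 * C ^ 2 * δ ^ 2 * sn (TT D k x) ξ := by
  have e : (D.G k p)⁻¹ *ᵥ D.G k x *ᵥ ξ - ξ = -((D.G k p)⁻¹ *ᵥ (D.G k p - D.G k x) *ᵥ ξ) := by
    rw [sub_mulVec, mulVec_sub, pd_inv_mul (D.G_pd k p hp), neg_sub]
  have hC := h.C_pos
  have hδ := h.δ_pos
  rw [e, sn_neg]
  calc _ ≤ _ := Y_le_G h hp _
    _ = 3 * C * δ * sn (D.G k p)⁻¹ ((D.G k p - D.G k x) *ᵥ ξ) := by rw [sn_mul_inv (D.G_pd k p hp)]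
    _ ≤ 3 * C * δ * (2 * (3 * C * δ * sn (TT D k x) ξ)) := by
      gcongr
      exact (g_cmp h hx hp hd _).trans (by gcongr; exact G_var_vec h hx hp hd ξ)
    _ = _ := by ring

theorem Y_vec (h : Sm R C δ) (hx : x ∈ U) (hp : p ∈ U) (hd : dist x p ≤ R * rr D k) (a : V n) :
    sn (D.Y k p) ((D.G k p)⁻¹ *ᵥ a) ≤ 2 * C * sn (TT D k x) ((D.G k x)⁻¹ *ᵥ a) := by
  have h1 := Y_transfer h hx hp hd ((D.G k x)⁻¹ *ᵥ a)
  have h2 := Y_le h hx hp hd ((D.G k x)⁻¹ *ᵥ a)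
  rw [pd_mul_inv (D.G_pd k x hx)] at h1
  have h3 := sn_add_le (D.Y_psd k p hp) ((D.G k p)⁻¹ *ᵥ a - (D.G k x)⁻¹ *ᵥ a) ((D.G k x)⁻¹ *ᵥ a)
  rw [sub_add_cancel] at h3
  have h4 : 18 * C ^ 2 * δ ^ 2 ≤ C := by nlinarith [h.Cδ, h.C_ge, mul_pos h.C_pos h.δ_pos]
  linarith [mul_le_mul_of_nonneg_right h4 (sn_nonneg (TT D k x) ((D.G k x)⁻¹ *ᵥ a))]

/-- `w = G (k+1) ζ`, `ξ = g k w`. -/
theorem w_est (h : Sm R C δ) (hx : x ∈ U) (k : ℕ) (ζ : V n) :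
    sn (TT D k x) ((D.G k x)⁻¹ *ᵥ D.G (k + 1) x *ᵥ ζ - ζ) ≤ 9 * C ^ 2 * δ ^ 2 * sn (TT D k x) ζ ∧
    sn (TT D k x) ((D.G k x)⁻¹ *ᵥ D.G (k + 1) x *ᵥ ζ) ≤ 2 * sn (TT D k x) ζ ∧
    sn (D.G k x)⁻¹ (D.G (k + 1) x *ᵥ ζ) ≤ 2 * sn (D.G k x) ζ := by
  have e : (D.G k x)⁻¹ *ᵥ D.G (k + 1) x *ᵥ ζ - ζ =
      -((D.G k x)⁻¹ *ᵥ (D.G k x - D.G (k + 1) x) *ᵥ ζ) := by
    rw [sub_mulVec, mulVec_sub, pd_inv_mul (D.G_pd k x hx), neg_sub]
  have hC := h.C_pos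
  have hδ := h.δ_pos
  have h0 := G_succ_vec (D := D) h hx k ζ
  have t0 := sn_nonneg (TT D k x) ζ
  have h1 : sn (TT D k x) ((D.G k x)⁻¹ *ᵥ D.G (k + 1) x *ᵥ ζ - ζ) ≤
      9 * C ^ 2 * δ ^ 2 * sn (TT D k x) ζ := by
    rw [e, sn_neg]
    refine (T_le h hx k _).trans ?_
    rw [sn_mul_inv (D.G_pd k x hx)]
    exact (mul_le_mul_of_nonneg_left h0 (by positivity)).trans_eq (by ring)
  refine ⟨h1, ?_, ?_⟩
  · have h3 := sn_add_le (T_psd (D := D) hx k) ((D.G k x)⁻¹ *ᵥ D.G (k + 1) x *ᵥ ζ - ζ) ζ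
    rw [sub_add_cancel] at h3
    have h4 : 9 * C ^ 2 * δ ^ 2 ≤ 1 := by nlinarith [h.Cδ, mul_pos hC hδ]
    linarith [mul_le_mul_of_nonneg_right h4 t0]
  · have h3 := sn_sub_le (g_psd (D := D) hx k) (D.G k x *ᵥ ζ) ((D.G k x - D.G (k + 1) x) *ᵥ ζ)
    rw [sub_mulVec, sub_sub_cancel, ← sub_mulVec, sn_inv_mul (D.G_pd k x hx)] at h3
    have h4 := mul_le_mul_of_nonneg_left (T_le (D := D) h hx k ζ) (by positivity : 0 ≤ 3 * C ^ 2 * δ)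
    have h5 : 9 * C ^ 2 * δ ^ 2 ≤ 1 := by nlinarith [h.Cδ, mul_pos hC hδ]
    linarith [mul_le_mul_of_nonneg_right h5 (sn_nonneg (D.G k x) ζ)]

theorem R_symm (hx : x ∈ U) (B : Mat n) : (B * D.G k x * Bᵀ - 1)ᵀ = B * D.G k x * Bᵀ - 1 := by
  rw [transpose_sub, transpose_one, transpose_mul, transpose_mul, transpose_transpose,
    psd_symm (G_psd hx k), Matrix.mul_assoc]

theorem Inv.R_op (hI : Inv D K k F B) (h : Par N₀ Ca R C δ K) (hx : x ∈ U) (v : V n) :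
    sn 1 ((B x * D.G k x * (B x)ᵀ - 1) *ᵥ v) ≤ sn 1 v := by
  simpa using sandwich_vec PosDef.one (R_symm (D := D) (k := k) hx (B x)) PosSemidef.one zero_le_one
    zero_le_one (fun v => by
      rw [qf_msub, qf_conj, qf_one']
      linarith [hI.Q_bd h hx v, dot_nn v]) (fun v => (one_mul _).ge) v

theorem Inv.B_op (hI : Inv D K k F B) (h : Par N₀ Ca R C δ K) (hx : x ∈ U) (a : V n) :
    sn 1 (B x *ᵥ a) ≤ 2 * sn (D.G k x)⁻¹ a :=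
  op_dual (D.G_pd k x hx) zero_le_two (hI.B_up h hx) a

theorem Inv.left_one (hI : Inv D K k F B) (h : Par N₀ Ca R C δ K) (hx : x ∈ U) (hp : p ∈ U)
    (hd : dist x p ≤ R * rr D k) (hσ : σ = 1 ∨ σ = -1) (v : V n) :
    sn (D.G k x) ((B p - B x)ᵀ *ᵥ v) ≤ tau D K k B σ x v := by
  have hC := h.sm.C_pos
  refine le_trans (le_of_mul_le_mul_left ((hI.left x hx p hp hd σ hσ v).trans ?_)
    (mul_pos (mul_pos hC h.sm.R_pos) (rr_pos D k))) (S_le_tau hx v)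
  rw [mul_comm]
  gcongr
  exact (u_up h.sm hx hp hd).trans ((mul_le_mul_of_nonneg_left hd hC.le).trans_eq (by ring))

theorem Inv.right_one (hI : Inv D K k F B) (h : Par N₀ Ca R C δ K) (hx : x ∈ U) (hp : p ∈ U)
    (hd : dist x p ≤ R * rr D k) (hκ : kt D k p ≤ 2 * kt D k x) (ζ : V n) :
    sn 1 ((B p - B x) *ᵥ D.G k x *ᵥ ζ) ≤ 2 * sn (TT D k x) ζ := by
  refine (hI.right x hx p hp _ _ (good_one h.sm hx hp hd) ζ).trans ?_
  rw [one_mul]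
  refine sn_le_mul (T_psd hx k) zero_le_two ?_
  rw [qT, qf_madd, qf_msmul]
  nlinarith [psd_qf (A_psd (D := D) hx k) ζ, psd_qf (G_psd (D := D) hx k) ζ, kt_nn (D := D) hx k]

/-- `R v = σ η v + s`. -/
theorem Inv.s_est (hI : Inv D K k F B) (h : Par N₀ Ca R C δ K) (hx : x ∈ U) (hσ : σ = 1 ∨ σ = -1)
    (v : V n) : sn 1 ((B x * D.G k x * (B x)ᵀ - 1) *ᵥ v - (σ * eta D K k x) • v) ≤
      3 * tau D K k B σ x v := by
  set S : Mat n := eta D K k x • 1 - σ • (B x * D.G k x * (B x)ᵀ - 1) -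
    (1 / 2 : ℝ) • (B x * D.A k x * (B x)ᵀ) with hS
  have q : ∀ v, qf S v = SS D K k B σ x v := fun v => by
    simp only [hS, qf_msub, qf_msmul, qf_conj, qf_one', SS]
    ring
  have ps : S.PosSemidef := .of_dotProduct_mulVec_nonneg (by
    rw [IsHermitian, conjTranspose_eq_transpose_of_trivial, hS, transpose_sub, transpose_sub,
      transpose_smul, transpose_smul, transpose_smul, R_symm hx, transpose_one, transpose_mul,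
      transpose_mul, transpose_transpose, psd_symm (A_psd hx k), ← Matrix.mul_assoc])
    fun v => (hI.bar x hx σ hσ v).trans_eq (q v).symm
  have a1 : sn 1 (S *ᵥ v) ≤ 2 * tau D K k B σ x v := by
    have := psd_vec PosDef.one ps zero_le_two (fun v => by rw [sn, q]; exact hI.S_le h hx hσ v) v
    rw [inv_one, show sn S v = √(SS D K k B σ x v) by rw [sn, q]] at this
    linarith [S_le_tau (D := D) (K := K) (k := k) (B := B) (σ := σ) hx v]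
  have a2 : sn 1 (B x *ᵥ D.A k x *ᵥ (B x)ᵀ *ᵥ v) ≤ tau D K k B σ x v := by
    have b1 := psd_vec (D.G_pd k x hx) (A_psd hx k) (by linarith [h.sm.δ_pos]) (A_le h.sm hx k)
      ((B x)ᵀ *ᵥ v)
    have b2 : sn (D.A k x) ((B x)ᵀ *ᵥ v) ≤ tau D K k B σ x v :=
      (Real.sqrt_le_sqrt (qA_le_T hx k _)).trans (hI.T_le_tau hx hσ v)
    have b3 := mul_le_mul_of_nonneg_right h.sm.δ_le (sn_nonneg (D.A k x) ((B x)ᵀ *ᵥ v))
    linarith [hI.B_op h hx (D.A k x *ᵥ (B x)ᵀ *ᵥ v), sn_nonneg (D.A k x) ((B x)ᵀ *ᵥ v)]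
  have e : (B x * D.G k x * (B x)ᵀ - 1) *ᵥ v - (σ * eta D K k x) • v =
      (-σ) • (S *ᵥ v + (1 / 2 : ℝ) • B x *ᵥ D.A k x *ᵥ (B x)ᵀ *ᵥ v) := by
    simp only [hS, sub_mulVec, smul_mulVec, one_mulVec, ← mulVec_mulVec]
    rcases hσ with rfl | rfl <;> module
  have s1 : |-σ| = 1 := by rcases hσ with rfl | rfl <;> simp
  rw [e, sn_smul, s1, one_mul]
  refine (sn_add_le PosSemidef.one _ _).trans ?_
  rw [sn_smul, abs_of_pos one_half_pos]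
  linarith [sn_nonneg 1 (B x *ᵥ D.A k x *ᵥ (B x)ᵀ *ᵥ v)]

theorem Inv.lam_right (hI : Inv D K k F B) (h : Par N₀ Ca R C δ K) (hx : x ∈ U) (hp : p ∈ U)
    (hd : dist x p ≤ R * rr D k) (a : V n) :
    sn 1 (Lam D k B p *ᵥ a) ≤ 48 * C ^ 3 * δ * sn (TT D k x) ((D.G k x)⁻¹ *ᵥ a) := by
  have hC := h.sm.C_pos
  have hδ := h.sm.δ_pos
  rw [Lam, smul_mulVec, sn_smul, abs_neg, abs_of_pos (by positivity)]
  simp only [← mulVec_mulVec]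
  calc _ ≤ 4 * C * (2 * (3 * C * δ * (2 * C * sn (TT D k x) ((D.G k x)⁻¹ *ᵥ a)))) := by
        gcongr
        refine (hI.R_op h hp _).trans ((hI.B_op h hp _).trans ?_)
        gcongr
        refine (psd_vec (D.G_pd k p hp) (D.Y_psd k p hp) (by positivity) (Y_le_G h.sm hp) _).trans ?_
        gcongr
        exact Y_vec h.sm hx hp hd a
    _ = _ := by ring

theorem abs_σ_eta (h : Par N₀ Ca R C δ K) (hx : x ∈ U) (hσ : σ = 1 ∨ σ = -1) :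
    |σ * eta D K k x| ≤ 1 := by
  have h1 := eta_ge (D := D) hx K k
  have h2 := eta_le (D := D) h hx k
  rcases hσ with rfl | rfl <;> exact abs_le.2 ⟨by linarith, by linarith⟩

/-- `π = B_pᵀ R_p v = σ η Bᵀ v + ρ`. -/
theorem Inv.pi_est (hI : Inv D K k F B) (h : Par N₀ Ca R C δ K) (hx : x ∈ U) (hp : p ∈ U)
    (hd : dist x p ≤ R * rr D k) (hκ : kt D k p ≤ 2 * kt D k x) (hσ : σ = 1 ∨ σ = -1) (v : V n) :
    sn (D.G k p) ((B p)ᵀ *ᵥ (B p * D.G k p * (B p)ᵀ - 1) *ᵥ v - (σ * eta D K k x) • (B x)ᵀ *ᵥ v) ≤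
      22 * tau D K k B σ x v := by
  have a1 := (G_cmp h.sm hx hp hd _).trans
    (mul_le_mul_of_nonneg_left (hI.left_one h hx hp hd hσ v) zero_le_two)
  have a2 := hI.s_est h hx hσ v
  have t1 := hI.T_le_tau hx hσ v
  have t0 := sn_nonneg (TT D k x) ((B x)ᵀ *ᵥ v)
  have a3 := hI.B_op h hp (D.G k p *ᵥ (B p - B x)ᵀ *ᵥ v)
  rw [sn_inv_mul (D.G_pd k p hp)] at a3
  have a4 : sn 1 (B p *ᵥ (D.G k p - D.G k x) *ᵥ (B x)ᵀ *ᵥ v) ≤ tau D K k B σ x v := by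
    have b1 := g_cmp h.sm hx hp hd ((D.G k p - D.G k x) *ᵥ (B x)ᵀ *ᵥ v)
    have b2 := G_var_vec h.sm hx hp hd ((B x)ᵀ *ᵥ v)
    have b3 := mul_le_mul_of_nonneg_right h.sm.Cδ t0
    linarith [hI.B_op h hp ((D.G k p - D.G k x) *ᵥ (B x)ᵀ *ᵥ v)]
  have a5 := hI.right_one h hx hp hd hκ ((B x)ᵀ *ᵥ v)
  have e : (B p)ᵀ *ᵥ (B p * D.G k p * (B p)ᵀ - 1) *ᵥ v - (σ * eta D K k x) • (B x)ᵀ *ᵥ v =
      (σ * eta D K k x) • (B p - B x)ᵀ *ᵥ v + (B p)ᵀ *ᵥ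
        (((B x * D.G k x * (B x)ᵀ - 1) *ᵥ v - (σ * eta D K k x) • v) +
          (B p *ᵥ D.G k p *ᵥ (B p - B x)ᵀ *ᵥ v + B p *ᵥ (D.G k p - D.G k x) *ᵥ (B x)ᵀ *ᵥ v +
            (B p - B x) *ᵥ D.G k x *ᵥ (B x)ᵀ *ᵥ v)) := by
    simp only [sub_mulVec, one_mulVec, ← mulVec_mulVec, transpose_sub, mulVec_sub, mulVec_add,
      mulVec_smul]
    module
  rw [e]
  refine (sn_add_le (G_psd hp k) _ _).trans ?_
  have a6 := mul_le_mul_of_nonneg_right (abs_σ_eta (D := D) (k := k) h hx hσ)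
    (sn_nonneg (D.G k p) ((B p - B x)ᵀ *ᵥ v))
  rw [sn_smul]
  refine add_le_of_le_sub_left ((hI.B_up h hp _).trans ?_)
  have a7 := fun a b c d : V n => (sn_add_le PosSemidef.one a (b + c + d)).trans (add_le_add_right
    ((sn_add_le PosSemidef.one _ _).trans (add_le_add_left (sn_add_le PosSemidef.one b c) _)) _)
  refine (mul_le_mul_of_nonneg_left (a7 _ _ _ _) zero_le_two).trans ?_
  linarith

theorem lam_T (hp : p ∈ U) (v : V n) : (Lam D k B p)ᵀ *ᵥ v = (-(4 * C)) •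
    (D.G k p)⁻¹ *ᵥ D.Y k p *ᵥ (B p)ᵀ *ᵥ (B p * D.G k p * (B p)ᵀ - 1) *ᵥ v := by
  rw [Lam, transpose_smul, smul_mulVec, transpose_mul, transpose_mul, transpose_mul, R_symm hp,
    psd_symm (g_psd hp k), psd_symm (D.Y_psd k p hp)]
  simp only [← mulVec_mulVec]

theorem lam_bf (hp : p ∈ U) (v a : V n) : v ⬝ᵥ Lam D k B p *ᵥ a = -(4 * C) *
    bf (D.Y k p) ((B p)ᵀ *ᵥ (B p * D.G k p * (B p)ᵀ - 1) *ᵥ v) ((D.G k p)⁻¹ *ᵥ a) := by
  rw [dot_mulVec, lam_T hp, smul_dotProduct, smul_eq_mul, bf, dot_mulVec (D.Y k p),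
    psd_symm (D.Y_psd k p hp), dot_mulVec (D.G k p)⁻¹, psd_symm (g_psd hp k)]

theorem Inv.Y_rho (hI : Inv D K k F B) (h : Par N₀ Ca R C δ K) (hx : x ∈ U) (hp : p ∈ U)
    (hd : dist x p ≤ R * rr D k) (hκ : kt D k p ≤ 2 * kt D k x) (hσ : σ = 1 ∨ σ = -1) (v : V n) :
    sn (D.Y k p) ((B p)ᵀ *ᵥ (B p * D.G k p * (B p)ᵀ - 1) *ᵥ v - (σ * eta D K k x) • (B x)ᵀ *ᵥ v) ≤
      66 * (C * δ) * tau D K k B σ x v :=
  (Y_le_G h.sm hp _).trans ((mul_le_mul_of_nonneg_left (hI.pi_est h hx hp hd hκ hσ v)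
    (by linarith [mul_pos h.sm.C_pos h.sm.δ_pos])).trans_eq (by ring))

theorem Inv.Y_zeta (hI : Inv D K k F B) (h : Par N₀ Ca R C δ K) (hx : x ∈ U) (hp : p ∈ U)
    (hd : dist x p ≤ R * rr D k) (hσ : σ = 1 ∨ σ = -1) (v : V n) :
    sn (D.Y k p) ((B x)ᵀ *ᵥ v) ≤ C * tau D K k B σ x v :=
  (Y_le h.sm hx hp hd _).trans (mul_le_mul_of_nonneg_left (hI.T_le_tau hx hσ v) h.sm.C_pos.le)

theorem tau_nn (D : CData n U Ca R C (δ ^ 2)) (K : ℝ) (k : ℕ) (B : M → Mat n) (σ : ℝ) (x : M)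
    (v : V n) : 0 ≤ tau D K k B σ x v := Real.sqrt_nonneg _

theorem Inv.Y_pi (hI : Inv D K k F B) (h : Par N₀ Ca R C δ K) (hx : x ∈ U) (hp : p ∈ U)
    (hd : dist x p ≤ R * rr D k) (hκ : kt D k p ≤ 2 * kt D k x) (hσ : σ = 1 ∨ σ = -1) (v : V n) :
    sn (D.Y k p) ((B p)ᵀ *ᵥ (B p * D.G k p * (B p)ᵀ - 1) *ᵥ v) ≤ 2 * C * tau D K k B σ x v := by
  have a1 := hI.Y_rho h hx hp hd hκ hσ v
  have a2 := hI.Y_zeta h hx hp hd hσ v
  have a3 := sn_add_le (D.Y_psd k p hp) ((B p)ᵀ *ᵥ (B p * D.G k p * (B p)ᵀ - 1) *ᵥ v -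
    (σ * eta D K k x) • (B x)ᵀ *ᵥ v) ((σ * eta D K k x) • (B x)ᵀ *ᵥ v)
  rw [sub_add_cancel, sn_smul] at a3
  have a4 := mul_le_mul_of_nonneg_right (abs_σ_eta (D := D) (k := k) h hx hσ)
    (sn_nonneg (D.Y k p) ((B x)ᵀ *ᵥ v))
  have a5 : 66 * (C * δ) ≤ C := by linarith [h.sm.Cδ, h.sm.C_ge]
  linarith [mul_le_mul_of_nonneg_right a5 (tau_nn D K k B σ x v)]

theorem Inv.lam_left (hI : Inv D K k F B) (h : Par N₀ Ca R C δ K) (hx : x ∈ U) (hp : p ∈ U)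
    (hd : dist x p ≤ R * rr D k) (hκ : kt D k p ≤ 2 * kt D k x) (hσ : σ = 1 ∨ σ = -1) (v : V n) :
    sn (D.G k x) ((Lam D k B p)ᵀ *ᵥ v) ≤ 48 * C ^ 3 * δ * tau D K k B σ x v := by
  have hC := h.sm.C_pos
  have hδ := h.sm.δ_pos
  refine (G_cmp h.sm hp hx (by rwa [dist_comm]) _).trans ?_
  rw [lam_T hp, sn_smul, abs_neg, abs_of_pos (by positivity), sn_mul_inv (D.G_pd k p hp)]
  calc _ ≤ 2 * (4 * C * (3 * C * δ * (2 * C * tau D K k B σ x v))) := by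
        gcongr
        refine (psd_vec (D.G_pd k p hp) (D.Y_psd k p hp) (by positivity) (Y_le_G h.sm hp) _).trans ?_
        gcongr
        exact hI.Y_pi h hx hp hd hκ hσ v
    _ = _ := by ring

theorem Inv.lam_both (hI : Inv D K k F B) (h : Par N₀ Ca R C δ K) (hx : x ∈ U) (hp : p ∈ U)
    (hd : dist x p ≤ R * rr D k) (hκ : kt D k p ≤ 2 * kt D k x) (hσ : σ = 1 ∨ σ = -1) (v a : V n) :
    |v ⬝ᵥ Lam D k B p *ᵥ a| ≤ 16 * C ^ 3 * tau D K k B σ x v * sn (TT D k x) ((D.G k x)⁻¹ *ᵥ a) := by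
  have hC := h.sm.C_pos
  have t0 := tau_nn D K k B σ x v
  rw [lam_bf hp, abs_mul, abs_neg, abs_of_pos (by positivity)]
  calc _ ≤ 4 * C * (2 * C * tau D K k B σ x v * (2 * C * sn (TT D k x) ((D.G k x)⁻¹ *ᵥ a))) := by
        gcongr
        exact (abs_bf_le (D.Y_psd k p hp) _ _).trans (mul_le_mul (hI.Y_pi h hx hp hd hκ hσ v)
          (Y_vec h.sm hx hp hd a) (sn_nonneg _ _) (by positivity))
    _ = _ := by ring

theorem Inv.lam_cross (hI : Inv D K k F B) (h : Par N₀ Ca R C δ K) (hx : x ∈ U) (hp : p ∈ U)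
    (hd : dist x p ≤ R * rr D k) (hκ : kt D k p ≤ 2 * kt D k x) (hσ : σ = 1 ∨ σ = -1) (v : V n) :
    2 * C * qf (D.Y k p) ((B x)ᵀ *ᵥ v) - 1100 * C ^ 3 * δ * tau D K k B σ x v ^ 2 ≤
      -σ * (v ⬝ᵥ Lam D k B p *ᵥ D.G (k + 1) x *ᵥ (B x)ᵀ *ᵥ v) := by
  have hC := h.sm.C_pos
  have hδ := h.sm.δ_pos
  have t0 := tau_nn D K k B σ x v
  have t1 := hI.T_le_tau hx hσ v
  have a1 := hI.Y_rho h hx hp hd hκ hσ v
  have a2 := hI.Y_zeta h hx hp hd hσ v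
  rw [lam_bf hp]
  set ζ := (B x)ᵀ *ᵥ v
  set τ := tau D K k B σ x v
  set π := (B p)ᵀ *ᵥ (B p * D.G k p * (B p)ᵀ - 1) *ᵥ v
  obtain ⟨w1, w2, -⟩ := w_est (D := D) h.sm hx k ζ
  have a3 := Y_vec h.sm hx hp hd (D.G (k + 1) x *ᵥ ζ)
  have a4 := Y_transfer h.sm hx hp hd ((D.G k x)⁻¹ *ᵥ D.G (k + 1) x *ᵥ ζ)
  have a5 := Y_le h.sm hx hp hd ((D.G k x)⁻¹ *ᵥ D.G (k + 1) x *ᵥ ζ - ζ)
  rw [pd_mul_inv (D.G_pd k x hx)] at a4
  set y := (D.G k p)⁻¹ *ᵥ D.G (k + 1) x *ᵥ ζ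
  set ξ := (D.G k x)⁻¹ *ᵥ D.G (k + 1) x *ᵥ ζ
  have b1 : sn (D.Y k p) y ≤ 4 * C * τ := by nlinarith
  have b2 : sn (D.Y k p) (y - ζ) ≤ C * δ * τ := by
    have c1 := sn_add_le (D.Y_psd k p hp) (y - ξ) (ξ - ζ)
    rw [sub_add_sub_cancel] at c1
    calc _ ≤ 18 * C ^ 2 * δ ^ 2 * (2 * τ) + C * (9 * C ^ 2 * δ ^ 2 * τ) := by
          refine c1.trans (add_le_add (a4.trans ?_) (a5.trans ?_)) <;> gcongr
          · linarith
          · exact w1.trans (by gcongr)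
      _ = (36 * (C * δ) + 9 * (C ^ 2 * δ)) * (C * δ * τ) := by ring
      _ ≤ _ := mul_le_of_le_one_left (by positivity) (by linarith [h.sm.Cδ, h.sm.C2δ])
  have e : bf (D.Y k p) π y = σ * eta D K k x * (qf (D.Y k p) ζ + bf (D.Y k p) ζ (y - ζ)) +
      bf (D.Y k p) (π - (σ * eta D K k x) • ζ) y := by
    rw [← bf_self, ← bf_add_right, ← bf_smul_left, add_sub_cancel, ← bf_add_left, add_sub_cancel]
  have b3 := (abs_bf_le (D.Y_psd k p hp) ζ (y - ζ)).trans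
    (mul_le_mul a2 b2 (sn_nonneg _ _) (by positivity))
  have b4 := (abs_bf_le (D.Y_psd k p hp) (π - (σ * eta D K k x) • ζ) y).trans
    (mul_le_mul a1 b1 (sn_nonneg _ _) (by positivity))
  have b5 := mul_le_mul_of_nonneg_right (eta_ge (D := D) hx K k) (psd_qf (D.Y_psd k p hp) ζ)
  have b6 : -(C * τ * (C * δ * τ)) ≤ eta D K k x * bf (D.Y k p) ζ (y - ζ) := by
    refine neg_le_of_abs_le ((abs_mul _ _).trans_le ?_)
    rw [abs_of_pos (by linarith [eta_ge (D := D) hx K k])]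
    exact (mul_le_of_le_one_left (abs_nonneg _) (by linarith [eta_le (D := D) h hx k])).trans b3
  have b7 := abs_le.1 b4
  have b8 : 0 ≤ C ^ 2 * δ * τ ^ 2 := by positivity
  have b9 : 1 / 2 * qf (D.Y k p) ζ - 275 * C ^ 2 * δ * τ ^ 2 ≤ σ * bf (D.Y k p) π y := by
    rw [e]
    rcases hσ with rfl | rfl <;> linarith
  linarith [mul_le_mul_of_nonneg_left b9 (by positivity : 0 ≤ 4 * C)]

theorem spl_est (h : Sm R C δ) (hx : x ∈ U) (hp : p ∈ U) (hd : dist x p ≤ R * rr D k)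
    (hκ : kt D k p ≤ 2 * kt D k x) :
    sn (TT D k x) ((D.G k x)⁻¹ *ᵥ (D.u x - D.u p)) ≤ 4 * C * R * rr D k * √(kt D k x) := by
  have h1 := (good_one h hx hp hd).T_spl h hx hp
  have h2 : √(kt D k x + kt D k p) ≤ 2 * √(kt D k x) := Real.sqrt_le_iff.2 ⟨by positivity, by
    rw [mul_pow, Real.sq_sqrt (kt_nn hx k)]
    linarith [kt_nn (D := D) hx k]⟩
  have := mul_pos (mul_pos h.C_pos h.R_pos) (rr_pos D k)
  rw [← neg_sub, mulVec_neg, sn_neg]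
  nlinarith

end Crest.Agent.R247.MC
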