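import Crest.Agent.R247.Defs

/-! # Row 247, block C: seminorms of positive semidefinite matrices (helper18) -/

set_option autoImplicit false
set_option linter.unusedSectionVars false
set_option linter.unusedVariables false
open MeasureTheory Filter Set Metric Matrix
open scoped ENNReal NNReal Topology ContDiff

noncomputable section
namespace Crest.Agent.R247.MC
universe u

variable {n : ℕ} {A B G G' H : Mat n} {a v w ζ : V n} {c : ℝ}

/-- The seminorm of a positive semidefinite matrix; `sn 1` is the Euclidean norm. -/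
def sn (A : Mat n) (v : V n) : ℝ := √(qf A v)

theorem sn_nonneg (A : Mat n) (v : V n) : 0 ≤ sn A v := Real.sqrt_nonneg _

theorem psd_qf (hA : A.PosSemidef) (v : V n) : 0 ≤ qf A v := by
  simpa [qf] using hA.dotProduct_mulVec_nonneg v

theorem psd_symm (hA : A.PosSemidef) : Aᵀ = A := by
  simpa using hA.1.eq

theorem sn_sq (hA : A.PosSemidef) (v : V n) : sn A v ^ 2 = qf A v := Real.sq_sqrt (psd_qf hA v)

theorem dot_mulVec (B : Mat n) (v a : V n) : v ⬝ᵥ B *ᵥ a = (Bᵀ *ᵥ v) ⬝ᵥ a := by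
  rw [dotProduct_mulVec, mulVec_transpose]

theorem bf_comm' (hA : Aᵀ = A) (v w : V n) : bf A v w = bf A w v := by
  rw [bf, dot_mulVec, hA, dotProduct_comm, bf]

theorem bf_self (A : Mat n) (v : V n) : bf A v v = qf A v := rfl

theorem bf_add_left (A : Mat n) (v v' w : V n) : bf A (v + v') w = bf A v w + bf A v' w :=
  add_dotProduct _ _ _

theorem bf_add_right (A : Mat n) (v w w' : V n) : bf A v (w + w') = bf A v w + bf A v w' := by
  simp only [bf, mulVec_add, dotProduct_add]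

theorem bf_smul_left (A : Mat n) (c : ℝ) (v w : V n) : bf A (c • v) w = c * bf A v w :=
  smul_dotProduct _ _ _

theorem qf_vadd (hA : Aᵀ = A) (v w : V n) : qf A (v + w) = qf A v + 2 * bf A v w + qf A w := by
  rw [← bf_self, bf_add_left, bf_add_right, bf_add_right, bf_comm' hA w v, bf_self, bf_self]
  ring

theorem qf_vsmul (A : Mat n) (c : ℝ) (v : V n) : qf A (c • v) = c ^ 2 * qf A v := by
  simp only [qf, mulVec_smul, smul_dotProduct, dotProduct_smul, smul_eq_mul]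
  ring

theorem qf_madd (A B : Mat n) (v : V n) : qf (A + B) v = qf A v + qf B v := by
  simp only [qf, add_mulVec, dotProduct_add]

theorem qf_msub (A B : Mat n) (v : V n) : qf (A - B) v = qf A v - qf B v := by
  simp only [qf, sub_mulVec, dotProduct_sub]

theorem qf_msmul (c : ℝ) (A : Mat n) (v : V n) : qf (c • A) v = c * qf A v := by
  simp only [qf, smul_mulVec, dotProduct_smul, smul_eq_mul]

theorem qf_one' (v : V n) : qf 1 v = v ⬝ᵥ v := by rw [qf, one_mulVec]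

theorem qf_conj (B G : Mat n) (v : V n) : qf (B * G * Bᵀ) v = qf G (Bᵀ *ᵥ v) := by
  rw [qf, ← mulVec_mulVec, ← mulVec_mulVec, dot_mulVec, qf]

theorem sn_one_sq (v : V n) : sn 1 v ^ 2 = v ⬝ᵥ v := by rw [sn_sq PosSemidef.one, qf_one']

/-- A symmetric form squeezed between `± c A` is bounded by `c A` as a bilinear form. -/
theorem sandwich (hH : Hᵀ = H) (hA : A.PosSemidef) (hc : 0 ≤ c)
    (h : ∀ v, |qf H v| ≤ c * qf A v) (v w : V n) : |bf H v w| ≤ c * (sn A v * sn A w) := by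
  have key : ∀ t : ℝ, 0 ≤ (c * qf A v) * (t * t) + (2 * bf H v w) * t + c * qf A w := fun t => by
    have h1 := (abs_le.1 (h (t • v + w))).1
    have h2 := (abs_le.1 (h (t • v + (-1 : ℝ) • w))).2
    rw [qf_vadd hH, qf_vadd (psd_symm hA), bf_smul_left, bf_smul_left, qf_vsmul, qf_vsmul] at h1
    rw [qf_vadd hH, qf_vadd (psd_symm hA), bf_smul_left, bf_smul_left, bf_comm' hH,
      bf_comm' (psd_symm hA), bf_smul_left, bf_smul_left, bf_comm' hH, bf_comm' (psd_symm hA),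
      qf_vsmul, qf_vsmul, qf_vsmul, qf_vsmul] at h2
    linarith
  have hd := discrim_le_zero key
  refine abs_le_of_sq_le_sq' ?_ (mul_nonneg hc (mul_nonneg (sn_nonneg _ _) (sn_nonneg _ _))) |> abs_le.2
  rw [mul_pow, mul_pow, sn_sq hA, sn_sq hA]
  rw [discrim] at hd
  linarith

theorem abs_bf_le (hA : A.PosSemidef) (v w : V n) : |bf A v w| ≤ sn A v * sn A w := by
  simpa using sandwich (psd_symm hA) hA zero_le_one
    (fun v => by rw [abs_of_nonneg (psd_qf hA v), one_mul]) v w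

theorem sn_le_of_sq (hc : 0 ≤ c) (h : qf A v ≤ c ^ 2) : sn A v ≤ c := Real.sqrt_le_iff.2 ⟨hc, h⟩

theorem sn_le_mul (hB : B.PosSemidef) (hc : 0 ≤ c) (h : qf A v ≤ c ^ 2 * qf B w) :
    sn A v ≤ c * sn B w :=
  sn_le_of_sq (mul_nonneg hc (sn_nonneg _ _)) (by rwa [mul_pow, sn_sq hB])

theorem sn_add_le (hA : A.PosSemidef) (v w : V n) : sn A (v + w) ≤ sn A v + sn A w := by
  refine sn_le_of_sq (add_nonneg (sn_nonneg _ _) (sn_nonneg _ _)) ?_
  rw [qf_vadd (psd_symm hA), add_sq, sn_sq hA, sn_sq hA]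
  linarith [(abs_le.1 (abs_bf_le hA v w)).2]

theorem sn_smul (A : Mat n) (c : ℝ) (v : V n) : sn A (c • v) = |c| * sn A v := by
  rw [sn, qf_vsmul, Real.sqrt_mul (sq_nonneg c), Real.sqrt_sq_eq_abs, sn]

theorem sn_neg (A : Mat n) (v : V n) : sn A (-v) = sn A v := by
  simpa using sn_smul A (-1) v

theorem sn_zero (A : Mat n) : sn A 0 = 0 := by simp [sn, qf]

theorem sn_sub_le (hA : A.PosSemidef) (v w : V n) : sn A (v - w) ≤ sn A v + sn A w := by
  rw [sub_eq_add_neg, ← sn_neg A w]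
  exact sn_add_le hA _ _

theorem sn_sub_comm (A : Mat n) (v w : V n) : sn A (v - w) = sn A (w - v) := by
  rw [← sn_neg, neg_sub]

theorem sn_sum_le (hA : A.PosSemidef) {ι : Type*} (s : Finset ι) (f : ι → V n) :
    sn A (∑ i ∈ s, f i) ≤ ∑ i ∈ s, sn A (f i) :=
  Finset.le_sum_of_subadditive (sn A) (sn_zero A).le (sn_add_le hA) s f

/-- `sn (A + m G) ≤ sn A + √m sn G`. -/
theorem sn_madd_le (hA : A.PosSemidef) (hG : G.PosSemidef) {m : ℝ} (hm : 0 ≤ m) (v : V n) :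
    sn (A + m • G) v ≤ sn A v + √m * sn G v := by
  have h0 := mul_nonneg (Real.sqrt_nonneg m) (sn_nonneg G v)
  refine sn_le_of_sq (add_nonneg (sn_nonneg _ _) h0) ?_
  rw [qf_madd, qf_msmul, add_sq, mul_pow, Real.sq_sqrt hm, sn_sq hA, sn_sq hG]
  nlinarith [sn_nonneg A v]

theorem sn_le_madd (hG : G.PosSemidef) {m : ℝ} (hm : 0 ≤ m) (A : Mat n) (v : V n) :
    sn A v ≤ sn (A + m • G) v :=
  Real.sqrt_le_sqrt (by rw [qf_madd, qf_msmul]; nlinarith [psd_qf hG v])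

theorem sn_le_madd' (hA : A.PosSemidef) {m : ℝ} (hm : 0 ≤ m) (G : Mat n) (v : V n) :
    √m * sn G v ≤ sn (A + m • G) v := by
  rw [sn, ← Real.sqrt_mul hm]
  exact Real.sqrt_le_sqrt (by rw [qf_madd, qf_msmul]; linarith [psd_qf hA v])

theorem pd_mul_inv (hG : G.PosDef) (a : V n) : G *ᵥ G⁻¹ *ᵥ a = a := by
  rw [mulVec_mulVec, mul_nonsing_inv _ ((isUnit_iff_isUnit_det _).1 hG.isUnit), one_mulVec]

theorem pd_inv_mul (hG : G.PosDef) (ζ : V n) : G⁻¹ *ᵥ G *ᵥ ζ = ζ := by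
  rw [mulVec_mulVec, nonsing_inv_mul _ ((isUnit_iff_isUnit_det _).1 hG.isUnit), one_mulVec]

theorem sn_inv_mul (hG : G.PosDef) (ζ : V n) : sn G⁻¹ (G *ᵥ ζ) = sn G ζ := by
  rw [sn, qf, pd_inv_mul hG, dotProduct_comm, sn, qf]

theorem sn_mul_inv (hG : G.PosDef) (a : V n) : sn G (G⁻¹ *ᵥ a) = sn G⁻¹ a := by
  rw [← sn_inv_mul hG, pd_mul_inv hG]

theorem abs_dot_le (hG : G.PosDef) (ζ a : V n) : |ζ ⬝ᵥ a| ≤ sn G ζ * sn G⁻¹ a := by
  have := abs_bf_le hG.posSemidef ζ (G⁻¹ *ᵥ a)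
  rwa [bf, pd_mul_inv hG, sn_mul_inv hG] at this

theorem abs_dot_le_one (v w : V n) : |v ⬝ᵥ w| ≤ sn 1 v * sn 1 w := by
  simpa using abs_dot_le PosDef.one v w

theorem sn_inv_le_of_dual (hG : G.PosDef) (hc : 0 ≤ c) (h : ∀ ζ, ζ ⬝ᵥ a ≤ c * sn G ζ) :
    sn G⁻¹ a ≤ c := by
  have h1 := h (G⁻¹ *ᵥ a)
  rw [sn_mul_inv hG, dotProduct_comm, ← qf, ← sn_sq hG.inv.posSemidef] at h1
  nlinarith [sn_nonneg G⁻¹ a]

theorem sn_one_le_of_dual (hc : 0 ≤ c) (h : ∀ v, v ⬝ᵥ a ≤ c * sn 1 v) : sn 1 a ≤ c := by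
  simpa using sn_inv_le_of_dual PosDef.one hc h

theorem sn_inv_mono (hG : G.PosDef) (hG' : G'.PosDef) (hc : 0 ≤ c)
    (h : ∀ ζ, sn G' ζ ≤ c * sn G ζ) (a : V n) : sn G⁻¹ a ≤ c * sn G'⁻¹ a :=
  sn_inv_le_of_dual hG (mul_nonneg hc (sn_nonneg _ _)) fun ζ =>
    (le_abs_self _).trans ((abs_dot_le hG' ζ a).trans
      ((mul_le_mul_of_nonneg_right (h ζ) (sn_nonneg _ _)).trans_eq (by ring)))

/-- The vector form of `sandwich`. -/
theorem sandwich_vec (hG : G.PosDef) (hH : Hᵀ = H) (hA : A.PosSemidef) (hc : 0 ≤ c) {μ : ℝ}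
    (hμ : 0 ≤ μ) (h : ∀ v, |qf H v| ≤ c * qf A v) (h' : ∀ v, sn A v ≤ μ * sn G v) (ζ : V n) :
    sn G⁻¹ (H *ᵥ ζ) ≤ c * μ * sn A ζ :=
  sn_inv_le_of_dual hG (mul_nonneg (mul_nonneg hc hμ) (sn_nonneg _ _)) fun ξ =>
    (le_abs_self _).trans ((sandwich hH hA hc h ξ ζ).trans ((mul_le_mul_of_nonneg_left
      (mul_le_mul_of_nonneg_right (h' ξ) (sn_nonneg _ _)) hc).trans_eq (by ring)))

theorem psd_vec (hG : G.PosDef) (hA : A.PosSemidef) {μ : ℝ} (hμ : 0 ≤ μ)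
    (h' : ∀ v, sn A v ≤ μ * sn G v) (ζ : V n) : sn G⁻¹ (A *ᵥ ζ) ≤ μ * sn A ζ := by
  simpa using sandwich_vec hG (psd_symm hA) hA zero_le_one hμ
    (fun v => by rw [abs_of_nonneg (psd_qf hA v), one_mul]) h' ζ

/-- A bound for `Bᵀ` gives the bound for `B`. -/
theorem op_dual (hG : G.PosDef) (hc : 0 ≤ c) (h : ∀ v, sn G (Bᵀ *ᵥ v) ≤ c * sn 1 v) (a : V n) :
    sn 1 (B *ᵥ a) ≤ c * sn G⁻¹ a :=
  sn_one_le_of_dual (mul_nonneg hc (sn_nonneg _ _)) fun v => by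
    rw [dot_mulVec]
    exact (le_abs_self _).trans ((abs_dot_le hG _ a).trans
      ((mul_le_mul_of_nonneg_right (h v) (sn_nonneg _ _)).trans_eq (by ring)))

/-- A lower bound for `Bᵀ` gives the lower bound for `B`. -/
theorem op_dual_low (hG : G.PosDef) (hc : 0 ≤ c) (h : ∀ v, sn 1 v ≤ c * sn G (Bᵀ *ᵥ v)) (a : V n) :
    sn G⁻¹ a ≤ c * sn 1 (B *ᵥ a) := by
  have hinj : Function.Injective Bᵀ.mulVecLin := by
    refine (injective_iff_map_eq_zero _).2 fun v hv => ?_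
    have h1 := h v
    rw [show Bᵀ *ᵥ v = 0 from hv, sn_zero, mul_zero] at h1
    rw [← dotProduct_self_eq_zero, ← sn_one_sq, le_antisymm h1 (sn_nonneg _ _)]
    norm_num
  refine sn_inv_le_of_dual hG (mul_nonneg hc (sn_nonneg _ _)) fun ζ => ?_
  obtain ⟨v, rfl⟩ := LinearMap.injective_iff_surjective.1 hinj ζ
  rw [mulVecLin_apply, ← dot_mulVec]
  exact (le_abs_self _).trans ((abs_dot_le_one _ _).trans
    ((mul_le_mul_of_nonneg_right (h v) (sn_nonneg _ _)).trans_eq (by ring)))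

theorem norm_toLp_eq (v : V n) : ‖(WithLp.toLp 2 v : E n)‖ = sn 1 v := by
  simp [EuclideanSpace.norm_eq, sn, qf_one', dotProduct, sq]

/-- A sum with at most `N₀` nonzero terms. -/
theorem sum_le_card {ι : Type*} (s : Finset ι) (P : ι → Prop) [DecidablePred P] {N₀ : ℕ}
    (hN : (s.filter P).card ≤ N₀) {f : ι → ℝ} (hc : 0 ≤ c) (h1 : ∀ b ∈ s, P b → f b ≤ c)
    (h2 : ∀ b ∈ s, ¬P b → f b ≤ 0) : ∑ b ∈ s, f b ≤ N₀ * c := by
  rw [← Finset.sum_filter_add_sum_filter_not s P]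
  have a1 := Finset.sum_le_card_nsmul (s.filter P) f c fun b hb =>
    h1 b (Finset.mem_filter.1 hb).1 (Finset.mem_filter.1 hb).2
  have a2 := Finset.sum_nonpos (s := s.filter fun b => ¬P b) fun b hb =>
    h2 b (Finset.mem_filter.1 hb).1 (Finset.mem_filter.1 hb).2
  rw [nsmul_eq_mul] at a1
  have a3 : ((s.filter P).card : ℝ) * c ≤ N₀ * c := mul_le_mul_of_nonneg_right (by exact_mod_cast hN) hc
  linarith

end Crest.Agent.R247.MC
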