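import Crest.Agent.R247.C.Bar

/-! # Row 247, block C: the two-point invariants -/

set_option autoImplicit false
set_option linter.unusedSectionVars false
set_option linter.unusedVariables false
open MeasureTheory Filter Set Metric Matrix
open scoped ENNReal NNReal Topology ContDiff

noncomputable section
namespace Crest.Agent.R247.MC
universe u

variable {n : ℕ} {M : Type u} [MetricSpace M] {U : Set M} {Ca R C δ K : ℝ} {N₀ k : ℕ}
  {D : CData n U Ca R C (δ ^ 2)} {x x' z p : M} {F : M → V n} {B : M → Mat n}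

variable {σ : ℝ}

theorem far2 {b : M} (hd : dist x x' ≤ R / 4 * rr D k) (hb : ¬dist x b ≤ R / 2 * rr D k) :
    R / 4 * rr D k < dist x' b := by
  linarith [not_le.1 hb, dist_triangle x x' b]

theorem sn_add3 {A : Mat n} (hA : A.PosSemidef) (s t r : ℝ) (a b c : V n) :
    sn A (s • a + t • b + r • c) ≤ |s| * sn A a + |t| * sn A b + |r| * sn A c := by
  rw [← sn_smul, ← sn_smul, ← sn_smul]
  exact (sn_add_le hA _ _).trans (add_le_add_left (sn_add_le hA _ _) _)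

theorem Inv.dB_left2 (hI : Inv D K k F B) (h : Par N₀ Ca R C δ K) (ν : Net D k N₀) (hx : x ∈ U)
    (hx' : x' ∈ U) (hd : dist x x' ≤ R / 4 * rr D k) (hσ : σ = 1 ∨ σ = -1) (v : V n) :
    rr D k * sn (D.G k x) ((ν.dB B x' - ν.dB B x)ᵀ *ᵥ v) ≤
      K * δ * tau D K k B σ x v * sn (D.G k x)⁻¹ (D.u x' - D.u x) := by
  have hC := h.sm.C_pos
  have hR := h.sm.R_pos
  have hδ := h.sm.δ_pos
  have hr := rr_pos D k
  have t0 := tau_nn D K k B σ x v
  have h0 := sn_nonneg (D.G k x)⁻¹ (D.u x' - D.u x)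
  rw [Net.dB, Net.dB, ← Finset.sum_sub_distrib, transpose_sum, sum_mulVec, mul_assoc, mul_assoc]
  refine (mul_le_mul_of_nonneg_left (sn_sum_le (G_psd hx k) _ _) hr.le).trans ?_
  rw [Finset.mul_sum]
  refine (sum_le_card _ _ (ν.card x hx) (by positivity)
    (fun b hb hb' => ?_) fun b hb hb' => ?_).trans (h.le_K (c := 1152) (by norm_num) (by positivity))
  · have hp := ν.p_mem b hb
    have a1 := hI.lam_left h hx hp (ν.near hb hb') (ν.p_min b hb x hx hb') hσ v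
    rw [transpose_sub, sub_mulVec, ν.db_left, ν.db_left]
    set l := (Lam D k B (ν.p b))ᵀ *ᵥ v
    set L := 48 * C ^ 3 * δ * tau D K k B σ x v with hL
    have L0 : 0 ≤ L := by positivity
    have e : ν.φ b x' • l + (l ⬝ᵥ (D.u x' - D.u (ν.p b))) • ν.dφ b x' -
        (ν.φ b x • l + (l ⬝ᵥ (D.u x - D.u (ν.p b))) • ν.dφ b x) = (ν.φ b x' - ν.φ b x) • l +
          (l ⬝ᵥ (D.u x' - D.u x)) • ν.dφ b x' +
            (l ⬝ᵥ (D.u x - D.u (ν.p b))) • (ν.dφ b x' - ν.dφ b x) := by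
      simp only [dotProduct_sub]
      module
    have a2 := (abs_dot_le (D.G_pd k x hx) l _).trans
      (mul_le_mul a1 (a_le h.sm hx hp (ν.near hb hb')) (sn_nonneg _ _) L0)
    have a3 := (abs_dot_le (D.G_pd k x hx) l (D.u x' - D.u x)).trans (mul_le_mul_of_nonneg_right a1 h0)
    have b1 := mul_le_mul (ν.φ_lip b hb x hx hb' x') a1 (sn_nonneg _ _) (by positivity)
    have b2 := mul_le_mul a3 (ν.dφ_le b hb x hx hb' x') (mul_nonneg hr.le (sn_nonneg _ _)) (by positivity)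
    have b3 := mul_le_mul_of_nonneg_right a2
      (mul_nonneg hr.le (sn_nonneg (D.G k x) (ν.dφ b x' - ν.dφ b x)))
    have b4 := mul_le_mul_of_nonneg_left (ν.dφ_lip b hb x hx hb' x') (by positivity : 0 ≤ L * (C * R))
    have b5 := mul_le_mul_of_nonneg_left h.sm.one_le_CR (mul_nonneg L0 h0)
    rw [e]
    refine (mul_le_mul_of_nonneg_left (sn_add3 (G_psd hx k) _ _ _ _ _ _) hr.le).trans ?_
    have e2 : 1152 * C ^ 4 * R * (δ * (tau D K k B σ x v * sn (D.G k x)⁻¹ (D.u x' - D.u x))) =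
        24 * (L * sn (D.G k x)⁻¹ (D.u x' - D.u x) * (C * R)) := by rw [hL]; ring
    linarith
  · rw [ν.db_zero B hb hx (far h.sm hb'), ν.db_zero B hb hx' (far2 hd hb'), sub_zero, transpose_zero,
      zero_mulVec, sn_zero, mul_zero]

theorem Inv.left_step (hI : Inv D K k F B) (h : Par N₀ Ca R C δ K) (ν : Net D k N₀) (hx : x ∈ U)
    (hx' : x' ∈ U) (hd : dist x x' ≤ R * rr D (k + 1)) (hσ : σ = 1 ∨ σ = -1) (v : V n) :
    C * R * rr D (k + 1) * sn (D.G (k + 1) x) ((B x' + ν.dB B x' - (B x + ν.dB B x))ᵀ *ᵥ v) ≤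
      √(SS D K (k + 1) (fun x => B x + ν.dB B x) σ x v) * sn (D.G (k + 1) x)⁻¹ (D.u x' - D.u x) := by
  have hC := h.sm.C_pos
  have hR := h.sm.R_pos
  have hr := rr_pos D (k + 1)
  have er := rr_succ D k
  have t0 := tau_nn D K k B σ x v
  have h0 := sn_nonneg (D.G k x)⁻¹ (D.u x' - D.u x)
  have a1 := (hI.left x hx x' hx' (by nlinarith) σ hσ v).trans
    (mul_le_mul_of_nonneg_right (S_le_tau hx v) h0)
  have a2 := mul_le_mul_of_nonneg_left (hI.dB_left2 h ν hx hx' (by rw [er]; linarith) hσ v)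
    (mul_pos hC hR).le
  have a3 := mul_le_mul_of_nonneg_right h.KCRδ (mul_nonneg t0 h0)
  have a4 : tau D K k B σ x v ≤ 16 / 5 * √(SS D K (k + 1) (fun x => B x + ν.dB B x) σ x v) := by
    have := hI.bar_step h ν hx hσ v
    refine (abs_le_of_sq_le_sq' ?_ (by positivity)).2
    rw [mul_pow, Real.sq_sqrt (by linarith [sq_nonneg (tau D K k B σ x v)])]
    linarith [sq_nonneg (tau D K k B σ x v)]
  have a5 := mul_le_mul a4 (g_up h.sm hx k (D.u x' - D.u x)) h0 (by positivity)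
  rw [add_sub_add_comm, transpose_add, add_mulVec]
  have a6 := mul_le_mul_of_nonneg_left ((G_up h.sm hx k _).trans (mul_le_mul_of_nonneg_left
    (sn_add_le (G_psd (D := D) hx k) ((B x' - B x)ᵀ *ᵥ v) ((ν.dB B x' - ν.dB B x)ᵀ *ᵥ v))
      (by norm_num))) (by positivity : 0 ≤ C * R * rr D (k + 1))
  rw [er] at a1 a2
  linarith [mul_nonneg t0 h0]

theorem Good.dist_le' (h : Sm R C δ) {t m : ℝ} (hg : Good D k t m x x') : dist x x' ≤ R * rr D k :=
  hg.dist_le.trans (mul_le_mul_of_nonneg_right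
    (mul_le_of_le_one_right h.R_pos.le (pow_le_one₀ hg.t_pos.le hg.t_le)) (rr_pos D k).le)

theorem Good.u_le (h : Sm R C δ) (hx : x ∈ U) (hx' : x' ∈ U) {t m : ℝ} (hg : Good D k t m x x') :
    sn (D.G k x)⁻¹ (D.u x' - D.u x) ≤ rr D k * (C * R * t ^ 2) :=
  (u_up h hx hx' (hg.dist_le' h)).trans
    ((mul_le_mul_of_nonneg_left hg.dist_le h.C_pos.le).trans_eq (by ring))

theorem Inv.dB_right2 (hI : Inv D K k F B) (h : Par N₀ Ca R C δ K) (ν : Net D k N₀) (hx : x ∈ U)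
    (hx' : x' ∈ U) {t m : ℝ} (hg : Good D k t m x x') (ht : t ≤ 1 / 2) (ζ : V n) :
    sn 1 ((ν.dB B x' - ν.dB B x) *ᵥ D.G (k + 1) x *ᵥ ζ) ≤
      4 * (K * C * R * δ) * t * sn (D.A k x + m • D.G k x) ζ := by
  have hC := h.sm.C_pos
  have hR := h.sm.R_pos
  have hδ := h.sm.δ_pos
  have hr := rr_pos D k
  have t0 := hg.t_pos
  have hd : dist x x' ≤ R / 4 * rr D k := hg.dist_le.trans (mul_le_mul_of_nonneg_right
    (by nlinarith [mul_le_mul ht ht t0.le one_half_pos.le]) hr.le)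
  have s0 := sn_nonneg (D.A k x + m • D.G k x) ζ
  have g0 := sn_nonneg (D.G k x) ζ
  have s1 := hg.T_le hx ζ
  have s2 := sn_le_madd' (A_psd (D := D) hx k) hg.m_nn (D.G k x) ζ
  have s3 := (mul_le_mul_of_nonneg_right (hg.sqrt_le hx) g0).trans s2
  have h1 := hg.u_le h.sm hx hx'
  obtain ⟨-, w1, w2⟩ := w_est (D := D) h.sm hx k ζ
  set s := sn (D.A k x + m • D.G k x) ζ
  set w := D.G (k + 1) x *ᵥ ζ
  rw [Net.dB, Net.dB, ← Finset.sum_sub_distrib, sum_mulVec]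
  refine (sn_sum_le PosSemidef.one _ _).trans ((sum_le_card _ _ (ν.card x hx) (by positivity)
    (fun b hb hb' => ?_) fun b hb hb' => ?_).trans ((h.le_K (c := 2000)
      (y := 4 * (C * R * δ * t * s)) le_rfl (by positivity)).trans_eq (by ring)))
  · have hp := ν.p_mem b hb
    have hn := ν.near hb hb'
    have l1 := hI.lam_right h hx hp hn
    rw [sub_mulVec, ν.db_right, ν.db_right]
    set L := Lam D k B (ν.p b)
    have e : ν.φ b x' • L *ᵥ w + (ν.dφ b x' ⬝ᵥ w) • L *ᵥ (D.u x' - D.u (ν.p b)) -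
        (ν.φ b x • L *ᵥ w + (ν.dφ b x ⬝ᵥ w) • L *ᵥ (D.u x - D.u (ν.p b))) =
          (ν.φ b x' - ν.φ b x) • L *ᵥ w + (ν.dφ b x' ⬝ᵥ w) • L *ᵥ (D.u x' - D.u x) +
            ((ν.dφ b x' - ν.dφ b x) ⬝ᵥ w) • L *ᵥ (D.u x - D.u (ν.p b)) := by
      simp only [sub_dotProduct, mulVec_sub]
      module
    have a1 : |ν.φ b x' - ν.φ b x| ≤ 4 * (C * R * t ^ 2) :=
      le_of_mul_le_mul_left (by linarith [ν.φ_lip b hb x hx hb' x']) hr
    have a2 : rr D k * sn (D.G k x) (ν.dφ b x' - ν.dφ b x) ≤ 16 * (C * R * t ^ 2) :=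
      le_of_mul_le_mul_left (by linarith [ν.dφ_lip b hb x hx hb' x']) hr
    have b1 : |ν.φ b x' - ν.φ b x| * sn 1 (L *ᵥ w) ≤ 384 * (C ^ 4 * R * δ * t * s) :=
      calc _ ≤ 4 * (C * R * t ^ 2) * (48 * C ^ 3 * δ * (2 * sn (TT D k x) ζ)) :=
            mul_le_mul a1 ((l1 w).trans (by gcongr)) (sn_nonneg _ _) (by positivity)
        _ = 384 * (C ^ 4 * R * δ * t * (t * sn (TT D k x) ζ)) := by ring
        _ ≤ _ := by gcongr
    have b2 : |ν.dφ b x' ⬝ᵥ w| * sn 1 (L *ᵥ (D.u x' - D.u x)) ≤ 768 * (C ^ 4 * R * δ * t * s) :=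
      calc _ ≤ sn (D.G k x) (ν.dφ b x') * (2 * sn (D.G k x) ζ) *
            (48 * C ^ 3 * δ * (2 * C * R * t * rr D k * √m)) :=
            mul_le_mul ((abs_dot_le (D.G_pd k x hx) _ w).trans
              (mul_le_mul_of_nonneg_left w2 (sn_nonneg _ _)))
              ((l1 _).trans (by gcongr; exact hg.T_spl h.sm hx hx')) (sn_nonneg _ _)
              (mul_nonneg (sn_nonneg _ _) (by positivity))
        _ = rr D k * sn (D.G k x) (ν.dφ b x') * (192 * (C ^ 4 * R * δ * t * (√m * sn (D.G k x) ζ))) := by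
            ring
        _ ≤ 4 * (192 * (C ^ 4 * R * δ * t * s)) := by gcongr; exact ν.dφ_le b hb x hx hb' x'
        _ = _ := by ring
    have b3 : |(ν.dφ b x' - ν.dφ b x) ⬝ᵥ w| * sn 1 (L *ᵥ (D.u x - D.u (ν.p b))) ≤
        6144 * (C ^ 4 * R * δ * t * s * (C * R)) :=
      calc _ ≤ sn (D.G k x) (ν.dφ b x' - ν.dφ b x) * (2 * sn (D.G k x) ζ) *
            (48 * C ^ 3 * δ * (4 * C * R * rr D k * √(kt D k x))) :=
            mul_le_mul ((abs_dot_le (D.G_pd k x hx) _ w).trans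
              (mul_le_mul_of_nonneg_left w2 (sn_nonneg _ _)))
              ((l1 _).trans (by gcongr; exact spl_est h.sm hx hp hn (ν.p_min b hb x hx hb')))
              (sn_nonneg _ _) (mul_nonneg (sn_nonneg _ _) (by positivity))
        _ = rr D k * sn (D.G k x) (ν.dφ b x' - ν.dφ b x) *
            (384 * (C ^ 4 * R * δ * (√(kt D k x) * sn (D.G k x) ζ))) := by ring
        _ ≤ 16 * (C * R * t ^ 2) * (384 * (C ^ 4 * R * δ * (√(kt D k x) * sn (D.G k x) ζ))) := by gcongr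
        _ = 6144 * (C ^ 4 * R * δ * t * (t * √(kt D k x) * sn (D.G k x) ζ) * (C * R)) := by ring
        _ ≤ _ := by gcongr
    have b4 := mul_le_mul_of_nonneg_left h.sm.one_le_CR (by positivity : 0 ≤ C ^ 4 * R * δ * t * s)
    rw [e]
    refine (sn_add3 PosSemidef.one _ _ _ _ _ _).trans ?_
    linarith [(by positivity : 0 ≤ C ^ 4 * R * δ * t * s)]
  · rw [ν.db_zero B hb hx (far h.sm hb'), ν.db_zero B hb hx' (far2 hd hb'), sub_zero, zero_mulVec,
      sn_zero]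

theorem Inv.right_step (hI : Inv D K k F B) (h : Par N₀ Ca R C δ K) (ν : Net D k N₀) (hx : x ∈ U)
    (hx' : x' ∈ U) {t m : ℝ} (hg : Good D (k + 1) t m x x') (ζ : V n) :
    sn 1 ((B x' + ν.dB B x' - (B x + ν.dB B x)) *ᵥ D.G (k + 1) x *ᵥ ζ) ≤
      t * sn (D.A (k + 1) x + m • D.G (k + 1) x) ζ := by
  have hC := h.sm.C_pos
  have hR := h.sm.R_pos
  have hδ := h.sm.δ_pos
  have hr := rr_pos D k
  have t0 := hg.t_pos
  have hg' := hg.descend h.sm hx hx'
  have a1 := hI.right x hx x' hx' _ _ hg' ζ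
  have a2 := hI.dB_right2 h ν hx hx' hg' (by linarith [hg.t_le]) ζ
  have a3 := op_dual (B := B x' - B x) (D.G_pd k x hx) (c := 2 * (t / 2) ^ 2) (by positivity)
    (fun v => le_of_mul_le_mul_left ((hI.left x hx x' hx' (hg'.dist_le' h.sm) 1 (.inl rfl) v).trans
      ((mul_le_mul (hI.S_le h hx (.inl rfl) v) (hg'.u_le h.sm hx hx') (sn_nonneg _ _)
        (mul_nonneg zero_le_two (sn_nonneg _ _))).trans_eq (by ring))) (by positivity))
    ((D.G k x - D.G (k + 1) x) *ᵥ ζ)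
  have s0 := sn_nonneg (D.A k x + m • D.G k x) ζ
  have a4 : 2 * (t / 2) ^ 2 * sn (D.G k x)⁻¹ ((D.G k x - D.G (k + 1) x) *ᵥ ζ) ≤
      6 * (1 / 16000) * (t / 2 * sn (D.A k x + m • D.G k x) ζ) :=
    calc _ ≤ 2 * (t / 2) ^ 2 * (3 * C ^ 2 * δ * sn (TT D k x) ζ) := by
          gcongr; exact G_succ_vec h.sm hx k ζ
      _ = 6 * (C ^ 2 * δ) * (t / 2 * (t / 2 * sn (TT D k x) ζ)) := by ring
      _ ≤ _ := by
          gcongr
          exacts [mul_nonneg (by positivity) (mul_nonneg (by positivity) (sn_nonneg _ _)), h.sm.C2δ,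
            hg'.T_le hx ζ]
  have a5 : sn (D.A k x + m • D.G k x) ζ ≤ 3 / 2 * sn (D.A (k + 1) x + m • D.G (k + 1) x) ζ := by
    refine sn_le_mul ((A_psd hx _).add ((G_psd hx _).smul hg.m_nn)) (by norm_num) ?_
    have b1 : qf (D.G k x) ζ ≤ 2 * qf (D.G (k + 1) x) ζ := by
      linarith [qG_down (D := D) hx k ζ, psd_qf (G_psd (D := D) hx k) ζ,
        mul_le_mul_of_nonneg_right h.sm.δ2 (psd_qf (G_psd (D := D) hx k) ζ)]
    rw [qf_madd, qf_madd, qf_msmul, qf_msmul, qA_succ hx]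
    linarith [psd_qf (A_psd (D := D) hx k) ζ, psd_qf (D.Dp_psd k x hx) ζ,
      mul_le_mul_of_nonneg_left b1 hg.m_nn, mul_nonneg hg.m_nn (psd_qf (G_psd (D := D) hx (k + 1)) ζ)]
  have e : (B x' + ν.dB B x' - (B x + ν.dB B x)) *ᵥ D.G (k + 1) x *ᵥ ζ =
      (B x' - B x) *ᵥ D.G k x *ᵥ ζ - (B x' - B x) *ᵥ (D.G k x - D.G (k + 1) x) *ᵥ ζ +
        (ν.dB B x' - ν.dB B x) *ᵥ D.G (k + 1) x *ᵥ ζ := by
    rw [add_sub_add_comm, add_mulVec, ← mulVec_sub, sub_mulVec (D.G k x), sub_sub_cancel]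
  rw [e]
  refine (sn_add_le PosSemidef.one _ _).trans ((add_le_add_left (sn_sub_le PosSemidef.one _ _) _).trans ?_)
  linarith [mul_le_mul_of_nonneg_right h.KCRδ (mul_nonneg t0.le s0), mul_le_mul_of_nonneg_left a5 t0.le,
    mul_nonneg t0.le s0]

theorem Inv.lam_crude (hI : Inv D K k F B) (h : Par N₀ Ca R C δ K) (hx : x ∈ U) (hp : p ∈ U)
    (hd : dist x p ≤ R * rr D k) (a : V n) :
    sn 1 (Lam D k B p *ᵥ a) ≤ 48 * C ^ 3 * δ * sn (D.G k x)⁻¹ a := by
  have hC := h.sm.C_pos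
  have hδ := h.sm.δ_pos
  refine (hI.lam_right h hx hp hd a).trans (mul_le_mul_of_nonneg_left ?_ (by positivity))
  refine (T_le h.sm hx k _).trans ?_
  rw [sn_mul_inv (D.G_pd k x hx)]
  exact mul_le_of_le_one_left (sn_nonneg _ _) (by linarith [h.sm.δ_le])

theorem Inv.lam_a (hI : Inv D K k F B) (h : Par N₀ Ca R C δ K) (hx : x ∈ U) (hp : p ∈ U)
    (hd : dist x p ≤ R * rr D k) :
    sn 1 (Lam D k B p *ᵥ (D.u x - D.u p)) ≤ 48 * C ^ 3 * δ * (C * R * rr D k) := by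
  have hC := h.sm.C_pos
  have hδ := h.sm.δ_pos
  exact (hI.lam_crude h hx hp hd _).trans
    (mul_le_mul_of_nonneg_left (a_le h.sm hx hp hd) (by positivity))

theorem Inv.dF_le (hI : Inv D K k F B) (h : Par N₀ Ca R C δ K) (ν : Net D k N₀) (hx : x ∈ U) :
    3 * R * sn 1 (ν.dF B x) ≤ rr D k := by
  have hC := h.sm.C_pos
  have hR := h.sm.R_pos
  have hδ := h.sm.δ_pos
  have hr := rr_pos D k
  have a : sn 1 (ν.dF B x) ≤ K * (δ * rr D k) := by
    refine (sn_sum_le PosSemidef.one _ _).trans ((sum_le_card _ _ (ν.card x hx) (by positivity)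
      (fun b hb hd => ?_) fun b hb hd => ?_).trans (h.le_K (c := 48) (by norm_num) (by positivity)))
    · rw [Net.fb, sn_smul, abs_of_nonneg (ν.φ_nn b x)]
      exact (mul_le_of_le_one_left (sn_nonneg _ _) (ν.φ_le b hb x)).trans
        ((hI.lam_a h hx (ν.p_mem b hb) (ν.near hb hd)).trans_eq (by ring))
    · rw [ν.fb_zero B hb hx (far h.sm hd), sn_zero]
  linarith [mul_le_mul_of_nonneg_left a hR.le, mul_le_mul_of_nonneg_right h.KRδ hr.le]

theorem Inv.tay_step (hI : Inv D K k F B) (h : Par N₀ Ca R C δ K) (ν : Net D k N₀) (hx : x ∈ U)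
    (hz : z ∈ U) (hd : dist x z ≤ rr D (k + 1)) :
    3 * R * rr D (k + 1) * sn 1 (F z + ν.dF B z - (F x + ν.dF B x) -
      (B x + ν.dB B x) *ᵥ (D.u z - D.u x)) ≤ dist x z ^ 2 := by
  have hC := h.sm.C_pos
  have hR := h.sm.R_pos
  have hδ := h.sm.δ_pos
  have hr := rr_pos D k
  have hr' := rr_pos D (k + 1)
  have er := rr_succ D k
  have h0 := sn_nonneg (D.G k x)⁻¹ (D.u z - D.u x)
  have hd' : dist x z ≤ R / 4 * rr D k := by nlinarith [h.sm.R_ge]
  have a1 := hI.tay x hx z hz (by linarith)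
  have a2 : rr D k * sn 1 (∑ b ∈ ν.s, (ν.fb B b z - ν.fb B b x - ν.db B b x *ᵥ (D.u z - D.u x))) ≤
      K * (δ * sn (D.G k x)⁻¹ (D.u z - D.u x) ^ 2) := by
    refine (mul_le_mul_of_nonneg_left (sn_sum_le PosSemidef.one _ _) hr.le).trans ?_
    rw [Finset.mul_sum]
    refine (sum_le_card _ _ (ν.card x hx) (by positivity)
      (fun b hb hb' => ?_) fun b hb hb' => ?_).trans (h.le_K (c := 960) (by norm_num) (by positivity))
    · have hp := ν.p_mem b hb
      have hn := ν.near hb hb'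
      have b1 := mul_le_mul (ν.φ_lip b hb x hx hb' z) (hI.lam_crude h hx hp hn (D.u z - D.u x))
        (sn_nonneg _ _) (by positivity)
      have b2 := mul_le_mul_of_nonneg_left (hI.lam_a h hx hp hn) (mul_nonneg hr.le
        (abs_nonneg (ν.φ b z - ν.φ b x - ν.dφ b x ⬝ᵥ (D.u z - D.u x))))
      have b3 := mul_le_mul_of_nonneg_right (ν.tay b hb x hx hb' z)
        (by positivity : 0 ≤ 48 * C ^ 3 * δ * (C * R))
      have b4 := mul_le_mul_of_nonneg_left h.sm.one_le_CR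
        (by positivity : 0 ≤ 192 * C ^ 3 * δ * sn (D.G k x)⁻¹ (D.u z - D.u x) ^ 2)
      have e : ν.fb B b z - ν.fb B b x - ν.db B b x *ᵥ (D.u z - D.u x) =
          (ν.φ b z - ν.φ b x) • Lam D k B (ν.p b) *ᵥ (D.u z - D.u x) +
            (ν.φ b z - ν.φ b x - ν.dφ b x ⬝ᵥ (D.u z - D.u x)) •
              Lam D k B (ν.p b) *ᵥ (D.u x - D.u (ν.p b)) := by
        rw [ν.db_right, Net.fb, Net.fb]
        simp only [mulVec_sub]
        module
      rw [e]
      refine (mul_le_mul_of_nonneg_left (sn_add_le PosSemidef.one _ _) hr.le).trans ?_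
      rw [sn_smul, sn_smul]
      linarith
    · rw [ν.db_zero B hb hx (far h.sm hb'), ν.fb_zero B hb hx (far h.sm hb'),
        ν.fb_zero B hb hz (far2 hd' hb'), zero_mulVec, sub_zero, sub_zero, sn_zero, mul_zero]
  have a3 : 16 * sn (D.G k x)⁻¹ (D.u z - D.u x) ^ 2 ≤ R * dist x z ^ 2 := by
    have := D.up₁ k x hx z hz (by change _ ≤ 4 * rr D k; linarith)
    have e := congrArg (· * dist x z ^ 2) h.R_eq
    rw [sn_sq (g_psd hx k)]
    linarith
  have a4 := mul_le_mul_of_nonneg_left a3 (mul_pos (mul_pos h.K_pos hδ) hR).le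
  have a5 : K * R ^ 2 * δ ≤ 1 / 1000 := by
    linarith [h.small, mul_le_mul_of_nonneg_left h.sm.C_ge
      (mul_pos (mul_pos h.K_pos (pow_pos hR 2)) hδ).le]
  have e : F z + ν.dF B z - (F x + ν.dF B x) - (B x + ν.dB B x) *ᵥ (D.u z - D.u x) =
      F z - F x - B x *ᵥ (D.u z - D.u x) +
        ∑ b ∈ ν.s, (ν.fb B b z - ν.fb B b x - ν.db B b x *ᵥ (D.u z - D.u x)) := by
    rw [Finset.sum_sub_distrib, Finset.sum_sub_distrib, ← sum_mulVec, add_mulVec, Net.dF, Net.dF, Net.dB]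
    abel
  rw [e]
  refine (mul_le_mul_of_nonneg_left (sn_add_le PosSemidef.one _ _) (by positivity)).trans ?_
  have a6 := mul_le_mul_of_nonneg_left a2 hR.le
  rw [er] at a1 a6
  linarith [mul_le_mul_of_nonneg_right a5 (sq_nonneg (dist x z)), sq_nonneg (dist x z)]

theorem Inv.step (hI : Inv D K k F B) (h : Par N₀ Ca R C δ K) (ν : Net D k N₀) :
    Inv D K (k + 1) (fun x => F x + ν.dF B x) fun x => B x + ν.dB B x :=
  ⟨fun x hx σ hσ v => by nlinarith [hI.bar_step h ν hx hσ v, sq_nonneg (tau D K k B σ x v)],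
    fun x hx x' hx' hd σ hσ v => hI.left_step h ν hx hx' hd hσ v,
    fun x hx x' hx' t m hg ζ => hI.right_step h ν hx hx' hg ζ,
    fun x hx z hz hd => hI.tay_step h ν hx hz hd⟩

end Crest.Agent.R247.MC
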